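import Vale.Agent.Lib.P154.Defs

/-!
# Broadcasting the `q`-state Potts channel on Galton-Watson trees

Definitions used by the statements of problem P154 on Galton-Watson trees.
-/

namespace Vale.Agent.Lib.P154

open scoped BigOperators

/-- The data seen by the observer at depth `n` of a Galton-Watson tree with spins in `Fin q`: at
depth `0` the spin of the root, and at depth `n + 1` the number `k` of children of the root
together with a `k`-tuple of data at depth `n`, one for the subtree of each child.  (So the
data consist of the tree truncated at depth `n`, with its children ordered, and the spins at depth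
`n`; the parts of the tree beyond depth `n` and the ordering of the children are independent of the
spins and do not change the posterior of the root spin.) -/
def GWConfig (q : ℕ) : ℕ → Type
  | 0 => Fin q
  | n + 1 => Σ k : ℕ, Fin k → GWConfig q n

/-- `gwLik q p lam n i s` is the conditional probability, given that the root has spin `i`, of the
data `s` at depth `n`, when the offspring numbers are independent with law `p` and each edge
independently passes the spin of the parent to the child through the Potts channel. -/
noncomputable def gwLik (q : ℕ) (p : ℕ → ℝ) (lam : ℝ) : (n : ℕ) → Fin q → GWConfig q n → ℝ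
  | 0, i, s => spinDelta q i s
  | n + 1, i, s =>
    p (s : Σ k : ℕ, Fin k → GWConfig q n).1 *
      ∏ c : Fin (s : Σ k : ℕ, Fin k → GWConfig q n).1, ∑ j : Fin q,
        potts q lam i j * gwLik q p lam n j ((s : Σ k : ℕ, Fin k → GWConfig q n).2 c)

/-- The probability of the data `s` when the root spin is uniform on `Fin q`. -/
noncomputable def gwProb (q : ℕ) (p : ℕ → ℝ) (lam : ℝ) (n : ℕ) (s : GWConfig q n) : ℝ :=
  ∑ i : Fin q, (1 / (q : ℝ)) * gwLik q p lam n i s

/-- The posterior probability of the root spin `i` given the data `s`. -/
noncomputable def gwPosterior (q : ℕ) (p : ℕ → ℝ) (lam : ℝ) (n : ℕ) (s : GWConfig q n) (i : Fin q) :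
    ℝ :=
  (1 / (q : ℝ)) * gwLik q p lam n i s / gwProb q p lam n s

/-- The summand of `a_n`: probability of the data times the distance of the posterior to uniform. -/
noncomputable def gwTerm (q : ℕ) (p : ℕ → ℝ) (lam : ℝ) (n : ℕ) (s : GWConfig q n) : ℝ :=
  gwProb q p lam n s * ((1 / 2) * ∑ i : Fin q, |gwPosterior q p lam n s i - 1 / (q : ℝ)|)

/-- The quantity `a_n = E[ (1/2) * ∑ i, |Pr(σ_root = i | T, σ_{L_n}) - 1/q| ]` of the problem, on the
Galton-Watson tree with offspring law `p`. -/
noncomputable def gwError (q : ℕ) (p : ℕ → ℝ) (lam : ℝ) (n : ℕ) : ℝ :=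
  ∑' s : GWConfig q n, gwTerm q p lam n s

/-- The Poisson law of mean `d`. -/
noncomputable def poissonLaw (d : ℝ) (k : ℕ) : ℝ := Real.exp (-d) * d ^ k / (k.factorial : ℝ)

end Vale.Agent.Lib.P154
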