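import Vale.Agent.Lib.P154.Defs2

/-!
The polynomial of the second kernel inequality, on the full simplex.
-/

namespace Vale.Agent.Lib.P154.GW

/-- the lower bound for the average of the closure kernel -/
noncomputable def LBg (A B C E : ℝ) : ℝ :=
  1 / 9 * (1 - 9 / 2 * A + 9 * B) * (1 - 9 / 2 * C + 9 * E) * (1 + 27 / 2 * A * C - 162 * B * E) - 1 / 9
    + 11 / 30 * (PP_Nq0 A B C E - PP_Nq1 A B C E + 16 / 25 * PP_Nq2 A B C E - 4 / 25 * PP_Nq3 A B C E)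
    + 2 / 15 * (PP_Nq0 A B C E - PP_Nq1 A B C E + 1 / 3 * PP_Nq2 A B C E)
    - 1 / 5 * (PP_J0 A B C E - PP_J1 A B C E + 1 / 3 * PP_J2 A B C E)

/-- the polynomial of the second kernel inequality -/
noncomputable def P2g (A B C E : ℝ) : ℝ :=
  LBg A B C E - (1 - 9 / 4 * C) ^ 2 * (B - 1 / 5 * A ^ 2) - (1 - 9 / 4 * A) ^ 2 * (E - 1 / 5 * C ^ 2)

end Vale.Agent.Lib.P154.GW
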