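import Vale.Agent.Lib.P154.GW.Func
import Vale.Agent.Lib.P154.GW.Cert1

/-!
The first kernel inequality on the full simplex: subadditivity of the second moment.
-/

namespace Vale.Agent.Lib.P154.GW

/-- interior points of the simplex -/
structure MsgI (a b c : ℝ) : Prop where
  ha : 0 < a
  hb : 0 < b
  hc : 0 < c
  hs : a + b + c = 1

theorem MsgI.simp {a b c : ℝ} (h : MsgI a b c) : Simp a b c :=
  ⟨h.ha.le, h.hb.le, h.hc.le, h.hs⟩

theorem MsgI.cyc {p q r : ℝ} (h : MsgI p q r) : MsgI q r p :=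
  ⟨h.hb, h.hc, h.ha, by linarith [h.hs]⟩

theorem MsgI.swap {p q r : ℝ} (h : MsgI p q r) : MsgI q p r :=
  ⟨h.hb, h.ha, h.hc, by linarith [h.hs]⟩

theorem dotI_pos {a b c p q r : ℝ} (h : Simp a b c) (h' : MsgI p q r) :
    0 < a * p + b * q + c * r := by
  have h1 := h.ha
  have h2 := h.hb
  have h3 := h.hc
  have h4 := h.hs
  have p1 := h'.ha
  have p2 := h'.hb
  have p3 := h'.hc
  have hcases : 0 < a ∨ 0 < b ∨ 0 < c := by
    by_contra hno
    push Not at hno
    linarith [hno.1, hno.2.1, hno.2.2]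
  rcases hcases with ha | hb | hc
  · have : 0 < a * p := mul_pos ha p1
    positivity
  · have : 0 < b * q := mul_pos hb p2
    positivity
  · have : 0 < c * r := mul_pos hc p3
    positivity

theorem P1g_nonneg {a b c p q r : ℝ} (h : Simp a b c) (h' : Simp p q r) :
    0 ≤ P1g (I2 a b c) (I3 a b c) (I2 p q r) (I3 p q r) := by
  by_cases hA : I2 a b c = 0
  · rw [hA, I3_eq_zero_of_I2 hA]
    unfold P1g T1g E0f Yf
    apply le_of_eq
    ring
  by_cases hC : I2 p q r = 0
  · rw [hC, I3_eq_zero_of_I2 hC]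
    unfold P1g T1g E0f Yf
    apply le_of_eq
    ring
  have a1 := h.atoms hA
  have a2 := h'.atoms hC
  have key := cert1g a1 a2
  set A := I2 a b c
  set B := I3 a b c
  set C := I2 p q r
  set E := I3 p q r
  have e1 : 2 / 3 * (3 / 2 * A) = A := by ring
  have e2 : 2 / 9 * (3 / 2 * A) * (3 * B / A) = B := by field_simp; ring
  have e3 : 2 / 3 * (3 / 2 * C) = C := by ring
  have e4 : 2 / 9 * (3 / 2 * C) * (3 * E / C) = E := by field_simp; ring
  rw [e1, e2, e3, e4] at key
  exact key

theorem QsqI_le {a b c p q r : ℝ} (h : Simp a b c) (h' : MsgI p q r) :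
    Qsq a b c p q r ≤ (Dd a b c p q r) ^ 2 := by
  have hp := h'.simp
  have e : (Dd a b c p q r) ^ 2 - Qsq a b c p q r
      = 18 * ((a * p) * (b * q) + (b * q) * (c * r) + (c * r) * (a * p)) := by
    unfold Dd Qsq; ring
  have h1 := h.ha
  have h2 := h.hb
  have h3 := h.hc
  have h4 := hp.ha
  have h5 := hp.hb
  have h6 := hp.hc
  have : 0 ≤ 18 * ((a * p) * (b * q) + (b * q) * (c * r) + (c * r) * (a * p)) := by positivity
  linarith

theorem DdI_pos {a b c p q r : ℝ} (h : Simp a b c) (h' : MsgI p q r) : 0 < Dd a b c p q r := by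
  unfold Dd
  have := dotI_pos h h'
  positivity

/-- the sum over a cyclic triple -/
theorem tripleI_sum {a b c p q r : ℝ} (h : Simp a b c) (h' : MsgI p q r) :
    wt I2 a b c p q r + wt I2 a b c q r p + wt I2 a b c r p q
      = 2 + 3 * Yf (I2 a b c) (I3 a b c) (I2 p q r) (I3 p q r) / Pi3 a b c p q r := by
  have h1 := dotI_pos h h'
  have h2 := dotI_pos h h'.cyc
  have h3 := dotI_pos h h'.cyc.cyc
  have d1 := DdI_pos h h'
  have d2 := DdI_pos h h'.cyc
  have d3 := DdI_pos h h'.cyc.cyc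
  rw [wt_I2 h1, wt_I2 h2, wt_I2 h3]
  have hS : (a * p + b * q + c * r) + (a * q + b * r + c * p) + (a * r + b * p + c * q) = 1 := by
    have hs := h.hs
    have hs' := h'.hs
    have : (a * p + b * q + c * r) + (a * q + b * r + c * p) + (a * r + b * p + c * q)
        = (a + b + c) * (p + q + r) := by ring
    rw [this, hs, hs']
    norm_num
  have hQ := triple_identity h.hs h'.hs
  have hPi : 0 < Pi3 a b c p q r := by
    unfold Pi3
    positivity
  have e : Qsq a b c p q r / Dd a b c p q r + Qsq a b c q r p / Dd a b c q r p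
      + Qsq a b c r p q / Dd a b c r p q
      = 3 + 3 * Yf (I2 a b c) (I3 a b c) (I2 p q r) (I3 p q r) / Pi3 a b c p q r := by
    have e2 : Qsq a b c p q r / Dd a b c p q r + Qsq a b c q r p / Dd a b c q r p
        + Qsq a b c r p q / Dd a b c r p q
        = (Qsq a b c p q r * (Dd a b c q r p * Dd a b c r p q)
          + Qsq a b c q r p * (Dd a b c p q r * Dd a b c r p q)
          + Qsq a b c r p q * (Dd a b c p q r * Dd a b c q r p)) / Pi3 a b c p q r := by
      unfold Pi3
      field_simp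
    rw [e2, hQ]
    field_simp
  linarith

/-- the quantity `Y` is not positive -/
theorem YfI_nonpos {a b c p q r : ℝ} (h : Simp a b c) (h' : MsgI p q r) :
    Yf (I2 a b c) (I3 a b c) (I2 p q r) (I3 p q r) ≤ 0 := by
  have hQ := triple_identity h.hs h'.hs
  have d1 := DdI_pos h h'
  have d2 := DdI_pos h h'.cyc
  have d3 := DdI_pos h h'.cyc.cyc
  have q1 := QsqI_le h h'
  have q2 := QsqI_le h h'.cyc
  have q3 := QsqI_le h h'.cyc.cyc
  have hsum := Dd_sum h.hs h'.hs
  have t1 := mul_le_mul_of_nonneg_right q1 (mul_pos d2 d3).le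
  have t2 := mul_le_mul_of_nonneg_right q2 (mul_pos d1 d3).le
  have t3 := mul_le_mul_of_nonneg_right q3 (mul_pos d1 d2).le
  have e : (Dd a b c p q r) ^ 2 * (Dd a b c q r p * Dd a b c r p q)
      + (Dd a b c q r p) ^ 2 * (Dd a b c p q r * Dd a b c r p q)
      + (Dd a b c r p q) ^ 2 * (Dd a b c p q r * Dd a b c q r p)
      = 3 * Pi3 a b c p q r := by
    unfold Pi3
    calc _ = (Dd a b c p q r + Dd a b c q r p + Dd a b c r p q)
          * (Dd a b c p q r * Dd a b c q r p * Dd a b c r p q) := by ring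
      _ = _ := by rw [hsum]
  linarith

/-- The first kernel inequality, pointwise. -/
theorem k1g_pointwise {a b c p q r : ℝ} (h : Simp a b c) (h' : MsgI p q r) :
    (1 / 6) * (wt I2 a b c p q r + wt I2 a b c q r p + wt I2 a b c r p q
        + wt I2 a b c q p r + wt I2 a b c p r q + wt I2 a b c r q p)
      ≤ I2 a b c + I2 p q r - T1g (I2 a b c) (I3 a b c) (I2 p q r) (I3 p q r) := by
  have t1 := tripleI_sum h h'
  have t2 := tripleI_sum h h'.swap
  rw [I2_swap p q r, I3_swap p q r] at t2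
  have hY := YfI_nonpos h h'
  have hP := P1g_nonneg h h'.simp
  have hE := E0_identity h.hs h'.hs
  set A := I2 a b c
  set B := I3 a b c
  set C := I2 p q r
  set E := I3 p q r
  have d1 := DdI_pos h h'
  have d2 := DdI_pos h h'.cyc
  have d3 := DdI_pos h h'.cyc.cyc
  have d4 := DdI_pos h h'.swap
  have d5 := DdI_pos h h'.swap.cyc
  have d6 := DdI_pos h h'.swap.cyc.cyc
  have hP1 : 0 < Pi3 a b c p q r := by unfold Pi3; positivity
  have hP2 : 0 < Pi3 a b c q p r := by unfold Pi3; positivity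
  have hE0 : 0 < E0f A B C E := by linarith
  have ahm : 2 / E0f A B C E ≤ 1 / Pi3 a b c p q r + 1 / Pi3 a b c q p r := by
    have : E0f A B C E = (Pi3 a b c p q r + Pi3 a b c q p r) / 2 := by linarith
    rw [this]
    rw [div_add_div _ _ hP1.ne' hP2.ne', div_le_div_iff₀ (by positivity) (by positivity)]
    nlinarith [sq_nonneg (Pi3 a b c p q r - Pi3 a b c q p r)]
  have h3 : Yf A B C E * (1 / Pi3 a b c p q r + 1 / Pi3 a b c q p r)
      ≤ Yf A B C E * (2 / E0f A B C E) :=
    mul_le_mul_of_nonpos_left ahm hY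
  have h4 : Yf A B C E / E0f A B C E ≤ A + C - T1g A B C E - 2 / 3 := by
    rw [div_le_iff₀ hE0]
    unfold P1g at hP
    linarith
  have h5 : Yf A B C E * (2 / E0f A B C E) = 2 * (Yf A B C E / E0f A B C E) := by ring
  have h6 : 3 * Yf A B C E / Pi3 a b c p q r + 3 * Yf A B C E / Pi3 a b c q p r
      = 3 * (Yf A B C E * (1 / Pi3 a b c p q r + 1 / Pi3 a b c q p r)) := by ring
  have t3 : wt I2 a b c p q r + wt I2 a b c q r p + wt I2 a b c r p q
        + wt I2 a b c q p r + wt I2 a b c p r q + wt I2 a b c r q p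
      = 4 + 3 * (Yf A B C E * (1 / Pi3 a b c p q r + 1 / Pi3 a b c q p r)) := by
    rw [← h6]
    linarith
  rw [t3]
  linarith

end Vale.Agent.Lib.P154.GW
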