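import Vale.Agent.Lib.P154.GW.K1
import Vale.Agent.Lib.P154.GW.Defs2
import Vale.Agent.Lib.P154.GW.Cert2LL
import Vale.Agent.Lib.P154.GW.Cert2LH
import Vale.Agent.Lib.P154.GW.Cert2HL
import Vale.Agent.Lib.P154.GW.Cert2HH

/-!
The second kernel inequality on the full simplex: closure of the class under the Bayesian product.
-/

namespace Vale.Agent.Lib.P154.GW

/-- the test function of the class, with `rho = 1/5` -/
noncomputable def fG (x y z : ℝ) : ℝ := I3 x y z - 1 / 5 * (I2 x y z) ^ 2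

/-- the polynomial lower bound for `D * fG`, for one permutation -/
noncomputable def LLg (K D Nq : ℝ) : ℝ :=
  K * (1 - 2 * (D - 1) + 3 * (D - 1) ^ 2 - 4 * (D - 1) ^ 3) - D / 9
    + 11 / 30 * Nq * (1 - (D - 1) + 16 / 25 * (D - 1) ^ 2 - 4 / 25 * (D - 1) ^ 3)
    + Nq * (1 - (D - 1) + 1 / 3 * (D - 1) ^ 2)
      * (2 / 15 - 1 / 5 * (Nq * (1 - 2 * (D - 1)) + 2 / 3 * (D - 1) ^ 2 * (3 + 2 * (D - 1))))

theorem LLg_le {K D Nq w : ℝ} (hK : 0 ≤ K) (hw : D * w = 1) (hD : 0 < D) (hD2 : D ≤ 3)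
    (h0 : 0 ≤ Nq) (hq : Nq ≤ 2 / 3 * D ^ 2) :
    LLg K D Nq ≤ K * w ^ 2 - D / 9 + (Nq * w) * (1 / 2 - 1 / 5 * (Nq * w ^ 2)) := by
  have hwpos : 0 < w := by
    by_contra hneg
    have : D * w ≤ 0 := mul_nonpos_of_nonneg_of_nonpos hD.le (not_lt.1 hneg)
    linarith
  obtain ⟨t, rfl⟩ : ∃ t, D = 1 + t := ⟨D - 1, by ring⟩
  have ht : -1 < t := by linarith
  have ht1 : t ≤ 2 := by linarith
  have ht2 : 1 + t - 1 = t := by ring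
  unfold LLg
  rw [ht2]
  -- the elementary bounds on `w`
  have w1 : 1 - (1 + t) * (1 - t + 16 / 25 * t ^ 2 - 4 / 25 * t ^ 3)
      = 4 / 25 * t ^ 2 * (3 / 2 - t) ^ 2 := by
    ring
  have f4 : 1 - t + 16 / 25 * t ^ 2 - 4 / 25 * t ^ 3 ≤ w := by
    have e : w - (1 - t + 16 / 25 * t ^ 2 - 4 / 25 * t ^ 3)
        = w * (4 / 25 * t ^ 2 * (3 / 2 - t) ^ 2) := by
      rw [← w1]
      linear_combination (1 - t + 16 / 25 * t ^ 2 - 4 / 25 * t ^ 3) * hw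
    have : 0 ≤ w * (4 / 25 * t ^ 2 * (3 / 2 - t) ^ 2) := by positivity
    linarith
  have f5 : 1 - t + 1 / 3 * t ^ 2 ≤ w := by
    have e : w - (1 - t + 1 / 3 * t ^ 2) = w * (t ^ 2 * (2 - t) / 3) := by
      linear_combination (1 - t + 1 / 3 * t ^ 2) * hw
    have h5 : 0 ≤ 2 - t := by linarith
    have : 0 ≤ w * (t ^ 2 * (2 - t) / 3) := by positivity
    linarith
  have f6 : 0 ≤ 1 - t + 1 / 3 * t ^ 2 := by nlinarith [sq_nonneg (t - 3 / 2)]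
  have hw2 : (1 + t) ^ 2 * w ^ 2 = 1 := by
    have : (1 + t) ^ 2 * w ^ 2 = ((1 + t) * w) ^ 2 := by ring
    rw [this, hw]; norm_num
  have f3 : 1 - 2 * t ≤ w ^ 2 := by
    have e : w ^ 2 - (1 - 2 * t) = w ^ 2 * (t ^ 2 * (3 + 2 * t)) := by
      linear_combination (1 - 2 * t) * hw2
    have h3 : 0 ≤ 3 + 2 * t := by linarith
    have : 0 ≤ w ^ 2 * (t ^ 2 * (3 + 2 * t)) := by positivity
    linarith
  have f7 : 1 - 2 * t + 3 * t ^ 2 - 4 * t ^ 3 ≤ w ^ 2 := by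
    have e : w ^ 2 - (1 - 2 * t + 3 * t ^ 2 - 4 * t ^ 3) = w ^ 2 * (t ^ 4 * (5 + 4 * t)) := by
      linear_combination (1 - 2 * t + 3 * t ^ 2 - 4 * t ^ 3) * hw2
    have h3 : 0 ≤ 5 + 4 * t := by linarith
    have : 0 ≤ w ^ 2 * (t ^ 4 * (5 + 4 * t)) := by positivity
    linarith
  -- the bound on `I`
  set I := Nq * w ^ 2 with hI
  set J := Nq * (1 - 2 * t) + 2 / 3 * t ^ 2 * (3 + 2 * t) with hJ
  have hI23 : I ≤ 2 / 3 := by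
    have : Nq * w ^ 2 ≤ (2 / 3 * (1 + t) ^ 2) * w ^ 2 :=
      mul_le_mul_of_nonneg_right hq (by positivity)
    have e : (2 / 3 * (1 + t) ^ 2) * w ^ 2 = 2 / 3 := by
      linear_combination (2 / 3) * hw2
    rw [hI]
    linarith
  have hIJ : I ≤ J := by
    have e : J - I = (w ^ 2 - (1 - 2 * t)) * (2 / 3 * (1 + t) ^ 2 - Nq) := by
      rw [hJ, hI]
      linear_combination (-(2 / 3)) * hw2
    have h1 : 0 ≤ w ^ 2 - (1 - 2 * t) := by linarith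
    have h2 : 0 ≤ 2 / 3 * (1 + t) ^ 2 - Nq := by linarith
    have : 0 ≤ (w ^ 2 - (1 - 2 * t)) * (2 / 3 * (1 + t) ^ 2 - Nq) := mul_nonneg h1 h2
    linarith
  have t1 : 0 ≤ K * (w ^ 2 - (1 - 2 * t + 3 * t ^ 2 - 4 * t ^ 3)) :=
    mul_nonneg hK (by linarith)
  have t2 : 0 ≤ 11 / 30 * Nq * (w - (1 - t + 16 / 25 * t ^ 2 - 4 / 25 * t ^ 3)) :=
    mul_nonneg (by positivity) (by linarith)
  have t3 : 0 ≤ Nq * ((w - (1 - t + 1 / 3 * t ^ 2)) * (2 / 15 - 1 / 5 * I)) :=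
    mul_nonneg h0 (mul_nonneg (by linarith) (by linarith))
  have t4 : 0 ≤ Nq * ((1 - t + 1 / 3 * t ^ 2) * (1 / 5 * (J - I))) :=
    mul_nonneg h0 (mul_nonneg f6 (by linarith))
  have key : K * w ^ 2 - (1 + t) / 9 + Nq * w * (1 / 2 - 1 / 5 * I)
      - (K * (1 - 2 * t + 3 * t ^ 2 - 4 * t ^ 3) - (1 + t) / 9
        + 11 / 30 * Nq * (1 - t + 16 / 25 * t ^ 2 - 4 / 25 * t ^ 3)
        + Nq * (1 - t + 1 / 3 * t ^ 2) * (2 / 15 - 1 / 5 * J))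
      = K * (w ^ 2 - (1 - 2 * t + 3 * t ^ 2 - 4 * t ^ 3))
        + 11 / 30 * Nq * (w - (1 - t + 16 / 25 * t ^ 2 - 4 / 25 * t ^ 3))
        + Nq * ((w - (1 - t + 1 / 3 * t ^ 2)) * (2 / 15 - 1 / 5 * I))
        + Nq * ((1 - t + 1 / 3 * t ^ 2) * (1 / 5 * (J - I))) := by
    ring
  linarith

/-- The pointwise bound for one permutation. -/
theorem perpiG {N1 N2 N3 : ℝ} (h1 : 0 ≤ N1) (h2 : 0 ≤ N2) (h3 : 0 ≤ N3) (hD : 0 < N1 + N2 + N3)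
    (hD2 : N1 + N2 + N3 ≤ 3) :
    LLg (3 * N1 * N2 * N3) (N1 + N2 + N3)
        (N1 ^ 2 + N2 ^ 2 + N3 ^ 2 - (N1 + N2 + N3) ^ 2 / 3)
      ≤ (N1 + N2 + N3) *
        fG (N1 / (N1 + N2 + N3)) (N2 / (N1 + N2 + N3)) (N3 / (N1 + N2 + N3)) := by
  set D := N1 + N2 + N3 with hDd
  have hne : D ≠ 0 := hD.ne'
  obtain ⟨w, hw⟩ : ∃ w, D * w = 1 := ⟨1 / D, by field_simp⟩
  have hw' : 1 / D = w := by
    field_simp
    linarith
  have z1 : N1 / D = N1 * w := by rw [div_eq_mul_one_div, hw']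
  have z2 : N2 / D = N2 * w := by rw [div_eq_mul_one_div, hw']
  have z3 : N3 / D = N3 * w := by rw [div_eq_mul_one_div, hw']
  rw [z1, z2, z3]
  have hsum : N1 * w + N2 * w + N3 * w = 1 := by
    have : N1 * w + N2 * w + N3 * w = D * w := by rw [hDd]; ring
    rw [this, hw]
  have hNq0 : 0 ≤ N1 ^ 2 + N2 ^ 2 + N3 ^ 2 - D ^ 2 / 3 := by
    have e : N1 ^ 2 + N2 ^ 2 + N3 ^ 2 - D ^ 2 / 3
        = ((N1 - N2) ^ 2 + (N2 - N3) ^ 2 + (N3 - N1) ^ 2) / 3 := by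
      rw [hDd]; ring
    rw [e]; positivity
  have hNq1 : N1 ^ 2 + N2 ^ 2 + N3 ^ 2 - D ^ 2 / 3 ≤ 2 / 3 * D ^ 2 := by
    have e : 2 / 3 * D ^ 2 - (N1 ^ 2 + N2 ^ 2 + N3 ^ 2 - D ^ 2 / 3)
        = 2 * (N1 * N2 + N2 * N3 + N3 * N1) := by
      rw [hDd]; ring
    have : 0 ≤ 2 * (N1 * N2 + N2 * N3 + N3 * N1) := by positivity
    linarith
  have key := LLg_le (K := 3 * N1 * N2 * N3) (D := D) (by positivity) hw hD hD2 hNq0 hNq1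
  refine le_trans key (le_of_eq ?_)
  unfold fG
  rw [I3_simplex hsum]
  have hI : I2 (N1 * w) (N2 * w) (N3 * w) = (N1 ^ 2 + N2 ^ 2 + N3 ^ 2 - D ^ 2 / 3) * w ^ 2 := by
    have e : I2 (N1 * w) (N2 * w) (N3 * w)
        = (N1 ^ 2 + N2 ^ 2 + N3 ^ 2) * w ^ 2 - 2 / 3 * (N1 * w + N2 * w + N3 * w) + 1 / 3 := by
      unfold I2; ring
    rw [e, hsum]
    have h2 : D ^ 2 * w ^ 2 = 1 := by
      have : D ^ 2 * w ^ 2 = (D * w) ^ 2 := by ring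
      rw [this, hw]; norm_num
    linear_combination (1 / 3) * h2
  rw [hI]
  have hD3 : D * (3 * (N1 * w * (N2 * w) * (N3 * w))) = 3 * N1 * N2 * N3 * w ^ 2 := by
    linear_combination (3 * N1 * N2 * N3 * w ^ 2) * hw
  have hD4 : D * w ^ 2 = w := by
    linear_combination w * hw
  set Nq := N1 ^ 2 + N2 ^ 2 + N3 ^ 2 - D ^ 2 / 3 with hNq
  calc 3 * N1 * N2 * N3 * w ^ 2 - D / 9 + Nq * w * (1 / 2 - 1 / 5 * (Nq * w ^ 2))
      = D * (3 * (N1 * w * (N2 * w) * (N3 * w))) - D / 9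
          + Nq * (D * w ^ 2) * (1 / 2 - 1 / 5 * (Nq * w ^ 2)) := by rw [hD3, hD4]
    _ = D * (3 * (N1 * w * (N2 * w) * (N3 * w)) - 1 / 9 + 1 / 2 * (Nq * w ^ 2)
          - 1 / 5 * (Nq * w ^ 2) ^ 2) := by ring

/-- the integrand in centred coordinates -/
noncomputable def Gvg (y1 y2 y3 v1 v2 v3 : ℝ) : ℝ :=
  LLg (3 * ((1 / 3 + y1) * (1 + 3 * v1)) * ((1 / 3 + y2) * (1 + 3 * v2))
      * ((1 / 3 + y3) * (1 + 3 * v3)))
    ((1 / 3 + y1) * (1 + 3 * v1) + (1 / 3 + y2) * (1 + 3 * v2) + (1 / 3 + y3) * (1 + 3 * v3))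
    (((1 / 3 + y1) * (1 + 3 * v1)) ^ 2 + ((1 / 3 + y2) * (1 + 3 * v2)) ^ 2
      + ((1 / 3 + y3) * (1 + 3 * v3)) ^ 2
      - ((1 / 3 + y1) * (1 + 3 * v1) + (1 / 3 + y2) * (1 + 3 * v2)
        + (1 / 3 + y3) * (1 + 3 * v3)) ^ 2 / 3)

/-- expansion of the integrand into its pieces -/
theorem Gvg_expand {y1 y2 y3 v1 v2 v3 : ℝ} (hy : y1 + y2 + y3 = 0) (hv : v1 + v2 + v3 = 0) :
    Gvg y1 y2 y3 v1 v2 v3
      = 3 * ((1 / 3 + y1) * (1 / 3 + y2) * (1 / 3 + y3)) * ((1 + 3 * v1) * (1 + 3 * v2) * (1 + 3 * v3))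
          * (1 - 2 * tauC y1 y2 y3 v1 v2 v3 + 3 * (tauC y1 y2 y3 v1 v2 v3) ^ 2
              - 4 * (tauC y1 y2 y3 v1 v2 v3) ^ 3)
        - (1 + tauC y1 y2 y3 v1 v2 v3) / 9
        + 11 / 30 * (FF_Nq0 y1 y2 y3 v1 v2 v3 - FF_Nq1 y1 y2 y3 v1 v2 v3
            + 16 / 25 * FF_Nq2 y1 y2 y3 v1 v2 v3 - 4 / 25 * FF_Nq3 y1 y2 y3 v1 v2 v3)
        + 2 / 15 * (FF_Nq0 y1 y2 y3 v1 v2 v3 - FF_Nq1 y1 y2 y3 v1 v2 v3
            + 1 / 3 * FF_Nq2 y1 y2 y3 v1 v2 v3)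
        - 1 / 5 * (FF_J0 y1 y2 y3 v1 v2 v3 - FF_J1 y1 y2 y3 v1 v2 v3
            + 1 / 3 * FF_J2 y1 y2 y3 v1 v2 v3) := by
  have hD : (1 / 3 + y1) * (1 + 3 * v1) + (1 / 3 + y2) * (1 + 3 * v2) + (1 / 3 + y3) * (1 + 3 * v3)
      = 1 + tauC y1 y2 y3 v1 v2 v3 := by
    unfold tauC
    linear_combination (1 : ℝ) * hv + 3 * 0 * hv + (1 : ℝ) * hy
  unfold Gvg
  rw [hD]
  have hNq : ((1 / 3 + y1) * (1 + 3 * v1)) ^ 2 + ((1 / 3 + y2) * (1 + 3 * v2)) ^ 2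
      + ((1 / 3 + y3) * (1 + 3 * v3)) ^ 2 - (1 + tauC y1 y2 y3 v1 v2 v3) ^ 2 / 3
      = NqC y1 y2 y3 v1 v2 v3 := rfl
  rw [hNq]
  unfold LLg FF_Nq0 FF_Nq1 FF_Nq2 FF_Nq3 FF_J0 FF_J1 FF_J2 JC
  have ht : 1 + tauC y1 y2 y3 v1 v2 v3 - 1 = tauC y1 y2 y3 v1 v2 v3 := by ring
  rw [ht]
  ring

/-- The average over the six permutations of the polynomial lower bound. -/
theorem avg_Gvg (y1 y2 v1 v2 : ℝ) :
    (1 / 6) * (Gvg y1 y2 (-y1 - y2) v1 v2 (-v1 - v2) + Gvg y1 y2 (-y1 - y2) v2 (-v1 - v2) v1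
      + Gvg y1 y2 (-y1 - y2) (-v1 - v2) v1 v2 + Gvg y1 y2 (-y1 - y2) v2 v1 (-v1 - v2)
      + Gvg y1 y2 (-y1 - y2) v1 (-v1 - v2) v2 + Gvg y1 y2 (-y1 - y2) (-v1 - v2) v2 v1)
    = LBg (Ic2 y1 y2) (Ic3 y1 y2) (Ic2 v1 v2) (Ic3 v1 v2) := by
  have hy : y1 + y2 + (-y1 - y2) = 0 := by ring
  have hv1 : v1 + v2 + (-v1 - v2) = 0 := by ring
  have hv2 : v2 + (-v1 - v2) + v1 = 0 := by ring
  have hv3 : (-v1 - v2) + v1 + v2 = 0 := by ring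
  have hv4 : v2 + v1 + (-v1 - v2) = 0 := by ring
  have hv5 : v1 + (-v1 - v2) + v2 = 0 := by ring
  have hv6 : (-v1 - v2) + v2 + v1 = 0 := by ring
  rw [Gvg_expand hy hv1, Gvg_expand hy hv2, Gvg_expand hy hv3, Gvg_expand hy hv4, Gvg_expand hy hv5,
    Gvg_expand hy hv6]
  have a1 := avg_Nq0 y1 y2 v1 v2
  have a2 := avg_Nq1 y1 y2 v1 v2
  have a3 := avg_Nq2 y1 y2 v1 v2
  have a4 := avg_Nq3 y1 y2 v1 v2
  have a5 := avg_J0 y1 y2 v1 v2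
  have a6 := avg_J1 y1 y2 v1 v2
  have a7 := avg_J2 y1 y2 v1 v2
  have a8 := avg_P2 y1 y2 v1 v2
  have a9 := avg_tau y1 y2 v1 v2
  have a10 := KK_eq y1 y2 v1 v2
  set K := 3 * ((1 / 3 + y1) * (1 / 3 + y2) * (1 / 3 + (-y1 - y2)))
        * ((1 + 3 * v1) * (1 + 3 * v2) * (1 + 3 * (-v1 - v2))) with hK
  have r2 : 3 * ((1 / 3 + y1) * (1 / 3 + y2) * (1 / 3 + (-y1 - y2)))
        * ((1 + 3 * v2) * (1 + 3 * (-v1 - v2)) * (1 + 3 * v1)) = K := by rw [hK]; ring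
  have r3 : 3 * ((1 / 3 + y1) * (1 / 3 + y2) * (1 / 3 + (-y1 - y2)))
        * ((1 + 3 * (-v1 - v2)) * (1 + 3 * v1) * (1 + 3 * v2)) = K := by rw [hK]; ring
  have r4 : 3 * ((1 / 3 + y1) * (1 / 3 + y2) * (1 / 3 + (-y1 - y2)))
        * ((1 + 3 * v2) * (1 + 3 * v1) * (1 + 3 * (-v1 - v2))) = K := by rw [hK]; ring
  have r5 : 3 * ((1 / 3 + y1) * (1 / 3 + y2) * (1 / 3 + (-y1 - y2)))
        * ((1 + 3 * v1) * (1 + 3 * (-v1 - v2)) * (1 + 3 * v2)) = K := by rw [hK]; ring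
  have r6 : 3 * ((1 / 3 + y1) * (1 / 3 + y2) * (1 / 3 + (-y1 - y2)))
        * ((1 + 3 * (-v1 - v2)) * (1 + 3 * v2) * (1 + 3 * v1)) = K := by rw [hK]; ring
  rw [r2, r3, r4, r5, r6]
  unfold LBg
  rw [show 1 / 9 * (1 - 9 / 2 * Ic2 y1 y2 + 9 * Ic3 y1 y2) * (1 - 9 / 2 * Ic2 v1 v2 + 9 * Ic3 v1 v2)
      * (1 + 27 / 2 * Ic2 y1 y2 * Ic2 v1 v2 - 162 * Ic3 y1 y2 * Ic3 v1 v2)
      = K * (1 + 27 / 2 * Ic2 y1 y2 * Ic2 v1 v2 - 162 * Ic3 y1 y2 * Ic3 v1 v2) by rw [a10]]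
  rw [← a1, ← a2, ← a3, ← a4, ← a5, ← a6, ← a7, ← a8]
  linear_combination (-(1 / 9 : ℝ)) * a9

theorem P2g_nonneg {a b c p q r : ℝ} (h : Simp a b c) (h' : Simp p q r) :
    0 ≤ P2g (I2 a b c) (I3 a b c) (I2 p q r) (I3 p q r) := by
  by_cases hA : I2 a b c = 0
  · rw [hA, I3_eq_zero_of_I2 hA]
    simp only [P2g, LBg, PP_Nq0, PP_Nq1, PP_Nq2, PP_Nq3, PP_J0, PP_J1, PP_J2]
    apply le_of_eq
    ring
  by_cases hC : I2 p q r = 0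
  · rw [hC, I3_eq_zero_of_I2 hC]
    simp only [P2g, LBg, PP_Nq0, PP_Nq1, PP_Nq2, PP_Nq3, PP_J0, PP_J1, PP_J2]
    apply le_of_eq
    ring
  have a1 := h.atoms hA
  have a2 := h'.atoms hC
  have key : 0 ≤ P2g (2 / 3 * (3 / 2 * I2 a b c))
      (2 / 9 * (3 / 2 * I2 a b c) * (3 * I3 a b c / I2 a b c))
      (2 / 3 * (3 / 2 * I2 p q r)) (2 / 9 * (3 / 2 * I2 p q r) * (3 * I3 p q r / I2 p q r)) := by
    rcases le_total (3 / 2 * I2 a b c) (1 / 2) with h1 | h1 <;>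
      rcases le_total (3 / 2 * I2 p q r) (1 / 2) with h2 | h2
    · exact cert2ll a1 a2 (by linarith) (by linarith)
    · exact cert2lh a1 a2 (by linarith) (by linarith)
    · exact cert2hl a1 a2 (by linarith) (by linarith)
    · exact cert2hh a1 a2 (by linarith) (by linarith)
  set A := I2 a b c
  set B := I3 a b c
  set C := I2 p q r
  set E := I3 p q r
  have e1 : 2 / 3 * (3 / 2 * A) = A := by ring
  have e2 : 2 / 9 * (3 / 2 * A) * (3 * B / A) = B := by field_simp; ring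
  have e3 : 2 / 3 * (3 / 2 * C) = C := by ring
  have e4 : 2 / 9 * (3 / 2 * C) * (3 * E / C) = E := by field_simp; ring
  rw [e1, e2, e3, e4] at key
  exact key

theorem wtG_ge {a b c p q r : ℝ} (h : Simp a b c) (h' : MsgI p q r) :
    LLg (3 * (3 * a * p) * (3 * b * q) * (3 * c * r)) (3 * a * p + 3 * b * q + 3 * c * r)
        ((3 * a * p) ^ 2 + (3 * b * q) ^ 2 + (3 * c * r) ^ 2
          - (3 * a * p + 3 * b * q + 3 * c * r) ^ 2 / 3)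
      ≤ wt fG a b c p q r := by
  have hS := dotI_pos h h'
  have hp := h'.simp
  have h1 : 0 ≤ 3 * a * p := by have := h.ha; have := hp.ha; positivity
  have h2 : 0 ≤ 3 * b * q := by have := h.hb; have := hp.hb; positivity
  have h3 : 0 ≤ 3 * c * r := by have := h.hc; have := hp.hc; positivity
  have hD : 0 < 3 * a * p + 3 * b * q + 3 * c * r := by nlinarith
  have hD2 : 3 * a * p + 3 * b * q + 3 * c * r ≤ 3 := by
    have := dot_le_one h hp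
    nlinarith
  have key := perpiG h1 h2 h3 hD hD2
  refine le_trans key (le_of_eq ?_)
  unfold wt
  have e : 3 * a * p + 3 * b * q + 3 * c * r = 3 * (a * p + b * q + c * r) := by ring
  rw [e]
  have hne : a * p + b * q + c * r ≠ 0 := hS.ne'
  have z1 : 3 * a * p / (3 * (a * p + b * q + c * r)) = a * p / (a * p + b * q + c * r) := by
    field_simp
  have z2 : 3 * b * q / (3 * (a * p + b * q + c * r)) = b * q / (a * p + b * q + c * r) := by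
    field_simp
  have z3 : 3 * c * r / (3 * (a * p + b * q + c * r)) = c * r / (a * p + b * q + c * r) := by
    field_simp
  rw [z1, z2, z3]

/-- The second kernel inequality, pointwise. -/
theorem k2g_pointwise {a b c p q r : ℝ} (h : Simp a b c) (h' : MsgI p q r) :
    (1 - 9 / 4 * I2 p q r) ^ 2 * (I3 a b c - 1 / 5 * (I2 a b c) ^ 2)
        + (1 - 9 / 4 * I2 a b c) ^ 2 * (I3 p q r - 1 / 5 * (I2 p q r) ^ 2)
      ≤ (1 / 6) * (wt fG a b c p q r + wt fG a b c q r p + wt fG a b c r p q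
        + wt fG a b c q p r + wt fG a b c p r q + wt fG a b c r q p) := by
  have hP := P2g_nonneg h h'.simp
  have w1 := wtG_ge h h'
  have w2 := wtG_ge h h'.cyc
  have w3 := wtG_ge h h'.cyc.cyc
  have w4 := wtG_ge h h'.swap
  have w5 := wtG_ge h h'.swap.cyc
  have w6 := wtG_ge h h'.swap.cyc.cyc
  obtain ⟨y1, rfl⟩ : ∃ y1, a = 1 / 3 + y1 := ⟨a - 1 / 3, by ring⟩
  obtain ⟨y2, rfl⟩ : ∃ y2, b = 1 / 3 + y2 := ⟨b - 1 / 3, by ring⟩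
  obtain rfl : c = 1 / 3 + (-y1 - y2) := by have := h.hs; linarith
  obtain ⟨v1, rfl⟩ : ∃ v1, p = 1 / 3 + v1 := ⟨p - 1 / 3, by ring⟩
  obtain ⟨v2, rfl⟩ : ∃ v2, q = 1 / 3 + v2 := ⟨q - 1 / 3, by ring⟩
  obtain rfl : r = 1 / 3 + (-v1 - v2) := by have := h'.hs; linarith
  have hA : I2 (1 / 3 + y1) (1 / 3 + y2) (1 / 3 + (-y1 - y2)) = Ic2 y1 y2 := by
    unfold I2 Ic2; ring
  have hB : I3 (1 / 3 + y1) (1 / 3 + y2) (1 / 3 + (-y1 - y2)) = Ic3 y1 y2 := by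
    unfold I3 Ic3; ring
  have hC : I2 (1 / 3 + v1) (1 / 3 + v2) (1 / 3 + (-v1 - v2)) = Ic2 v1 v2 := by
    unfold I2 Ic2; ring
  have hE : I3 (1 / 3 + v1) (1 / 3 + v2) (1 / 3 + (-v1 - v2)) = Ic3 v1 v2 := by
    unfold I3 Ic3; ring
  rw [hA, hB, hC, hE] at hP
  rw [hA, hB, hC, hE]
  have havg := avg_Gvg y1 y2 v1 v2
  have n : ∀ s t : ℝ, 3 * (1 / 3 + s) * (1 / 3 + t) = (1 / 3 + s) * (1 + 3 * t) := by
    intro s t; ring
  simp only [n] at w1 w2 w3 w4 w5 w6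
  have g1 : Gvg y1 y2 (-y1 - y2) v1 v2 (-v1 - v2) ≤ _ := w1
  have g2 : Gvg y1 y2 (-y1 - y2) v2 (-v1 - v2) v1 ≤ _ := w2
  have g3 : Gvg y1 y2 (-y1 - y2) (-v1 - v2) v1 v2 ≤ _ := w3
  have g4 : Gvg y1 y2 (-y1 - y2) v2 v1 (-v1 - v2) ≤ _ := w4
  have g5 : Gvg y1 y2 (-y1 - y2) v1 (-v1 - v2) v2 ≤ _ := w5
  have g6 : Gvg y1 y2 (-y1 - y2) (-v1 - v2) v2 v1 ≤ _ := w6
  unfold P2g at hP
  linarith

end Vale.Agent.Lib.P154.GW
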