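import Vale.Agent.Lib.P154.GW.K2

/-!
The recursion for the second moment on Galton-Watson trees.
-/

namespace Vale.Agent.Lib.P154.GW

open Filter Topology

theorem bd_fG : Bd fG := bd_I3.sub (Bd.smul _ (bd_I2.pow 2))

theorem Bd.sym6 {F : Fn3} (hF : Bd F) :
    Bd (fun p q r => (1 / 6) * (F p q r + F q r p + F r p q + F q p r + F p r q + F r q p)) :=
  Bd.smul _ (((((hF.add hF.cyc).add hF.cyc.cyc).add hF.swap).add hF.swap.cyc.cyc).add hF.swap.cyc)

theorem psi_nonneg {a b c : ℝ} (h : Simp a b c) : 0 ≤ 13 / 2 * I2 a b c - 12 * I3 a b c := by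
  have h1 := I2_sub_nonneg h
  have h2 := I2_nonneg a b c
  linarith

/-- the dual form used for the mean of `psi` -/
theorem psi_mean {E : Ex3} {K : ℝ → ℝ → ℝ → Prop} (hE : BExp E K) : 0 ≤ 13 / 2 * E I2 - 12 * E I3 := by
  have h1 : 0 ≤ E (fun a b c => 0 + 13 / 2 * I2 a b c + (-12) * I3 a b c) :=
    hE.nonneg _ (fun a b c hK => by
      have := psi_nonneg (hE.sup a b c hK)
      linarith)
  rw [hE.lin3 _ _ _ bd_I2 bd_I3] at h1
  linarith

/-- integrated form of the first kernel inequality -/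
theorem m2_bprod_leG {E E' : Ex3} (hE : BExp E Simp) (hE' : BExp E' MsgI)
    (h1 : 0 ≤ E fG) (h2 : 0 ≤ E' fG) :
    bprod E E' I2 ≤ E I2 + E' I2 - 1 / 100 * E I2 * E' I2 := by
  have hinner : ∀ a b c, Simp a b c →
      E' (fun p q r => wt I2 a b c p q r)
        ≤ E' I2 + (1 - 1 / 100 * E' I2 - 13 / 2 * E' fG) * I2 a b c + (12 * E' fG) * I3 a b c
          + (12 * E' I3 - 13 / 2 * E' I2) * fG a b c := by
    intro a b c hK
    rw [← hE'.sym6 (bd_wt bd_I2 hK)]
    have hmono := hE'.mono (f := fun p q r => (1 / 6) * (wt I2 a b c p q r + wt I2 a b c q r p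
        + wt I2 a b c r p q + wt I2 a b c q p r + wt I2 a b c p r q + wt I2 a b c r q p))
      (g := fun p q r => I2 a b c + (1 - 13 / 2 * fG a b c - 1 / 100 * I2 a b c) * I2 p q r
        + (12 * fG a b c) * I3 p q r + (-(13 / 2 * I2 a b c - 12 * I3 a b c)) * fG p q r)
      (Bd.sym6 (bd_wt bd_I2 hK))
      ((((Bd.const _).add (Bd.smul _ bd_I2)).add (Bd.smul _ bd_I3)).add (Bd.smul _ bd_fG))
      (fun p q r hK' => by
        refine le_trans (k1g_pointwise hK hK') (le_of_eq ?_)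
        unfold T1g fG
        ring)
    refine le_trans hmono (le_of_eq ?_)
    rw [hE'.lin4 _ _ _ _ bd_I2 bd_I3 bd_fG]
    ring
  have h3 : bprod E E' I2 ≤ E (fun a b c => E' I2 + (1 - 1 / 100 * E' I2 - 13 / 2 * E' fG) * I2 a b c
      + (12 * E' fG) * I3 a b c + (12 * E' I3 - 13 / 2 * E' I2) * fG a b c) :=
    hE.mono (bd_inner bd_I2 hE')
      ((((Bd.const _).add (Bd.smul _ bd_I2)).add (Bd.smul _ bd_I3)).add (Bd.smul _ bd_fG)) hinner
  rw [hE.lin4 _ _ _ _ bd_I2 bd_I3 bd_fG] at h3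
  have h4 := psi_mean hE
  have h4' := psi_mean hE'
  have h5 : 0 ≤ E' fG * (13 / 2 * E I2 - 12 * E I3) := mul_nonneg h2 h4
  have h6 : 0 ≤ E fG * (13 / 2 * E' I2 - 12 * E' I3) := mul_nonneg h1 h4'
  nlinarith

/-- the square weight of the closure inequality -/
noncomputable def hG (x y z : ℝ) : ℝ := (1 - 9 / 4 * I2 x y z) ^ 2

theorem bd_hG : Bd hG := ((Bd.const 1).sub (Bd.smul _ bd_I2)).pow 2

/-- integrated form of the second kernel inequality -/
theorem class_bprodG {E E' : Ex3} (hE : BExp E Simp) (hE' : BExp E' MsgI)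
    (h1 : 0 ≤ E fG) (h2 : 0 ≤ E' fG) :
    0 ≤ bprod E E' fG := by
  have hinner : ∀ a b c, Simp a b c →
      0 + (E' hG) * fG a b c + (E' fG) * hG a b c ≤ E' (fun p q r => wt fG a b c p q r) := by
    intro a b c hK
    rw [← hE'.sym6 (bd_wt bd_fG hK)]
    have hmono := hE'.mono
      (f := fun p q r => 0 + (fG a b c) * hG p q r + (hG a b c) * fG p q r)
      (g := fun p q r => (1 / 6) * (wt fG a b c p q r + wt fG a b c q r p
        + wt fG a b c r p q + wt fG a b c q p r + wt fG a b c p r q + wt fG a b c r q p))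
      (((Bd.const _).add (Bd.smul _ bd_hG)).add (Bd.smul _ bd_fG))
      (Bd.sym6 (bd_wt bd_fG hK))
      (fun p q r hK' => by
        refine le_trans (le_of_eq ?_) (k2g_pointwise hK hK')
        unfold hG fG
        ring)
    refine le_trans (le_of_eq ?_) hmono
    rw [hE'.lin3 _ _ _ bd_hG bd_fG]
    ring
  have h3 := hE.mono (f := fun a b c => 0 + (E' hG) * fG a b c + (E' fG) * hG a b c)
    (g := fun a b c => E' (fun p q r => wt fG a b c p q r))
    (((Bd.const _).add (Bd.smul _ bd_fG)).add (Bd.smul _ bd_hG))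
    (bd_inner bd_fG hE') hinner
  rw [hE.lin3 _ _ _ bd_fG bd_hG] at h3
  have h4 : 0 ≤ E hG := hE.nonneg _ (fun a b c _ => by unfold hG; positivity)
  have h4' : 0 ≤ E' hG := hE'.nonneg _ (fun a b c _ => by unfold hG; positivity)
  have h6 : 0 ≤ E' hG * E fG := mul_nonneg h4' h1
  have h7 : 0 ≤ E' fG * E hG := mul_nonneg h2 h4
  have : bprod E E' fG = E (fun a b c => E' (fun p q r => wt fG a b c p q r)) := rfl
  rw [this]
  linarith

/-- the second moment after the channel -/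
theorem m2_chanG {E : Ex3} {K : ℝ → ℝ → ℝ → Prop} (hE : BExp E K) (lam : ℝ) :
    chan lam E I2 = lam ^ 2 * E I2 := by
  unfold chan
  rw [← hE.smul]
  congr 1
  funext a b c
  exact I2_chan lam a b c

/-- the channel keeps the class -/
theorem class_chanG {E : Ex3} {K : ℝ → ℝ → ℝ → Prop} (hE : BExp E K) {lam : ℝ} (h0 : 0 ≤ lam)
    (h1 : lam ≤ 1) (hc : 0 ≤ E fG) : 0 ≤ chan lam E fG := by
  unfold chan
  have hmono := hE.mono (f := fun a b c => lam ^ 3 * fG a b c)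
    (g := fun a b c => fG (chanPt lam a) (chanPt lam b) (chanPt lam c))
    (Bd.smul _ bd_fG) (bd_chan h0 h1 bd_fG)
    (fun a b c _ => by
      unfold fG
      rw [I2_chan, I3_chan]
      have h2 : 0 ≤ lam ^ 3 * ((I2 a b c) ^ 2 * (1 / 5 - 1 / 5 * lam)) := by
        have : 0 ≤ 1 / 5 - 1 / 5 * lam := by linarith
        positivity
      nlinarith)
  rw [hE.smul] at hmono
  have : 0 ≤ lam ^ 3 * E fG := by positivity
  linarith

theorem centre_bexp {K : ℝ → ℝ → ℝ → Prop} (h : ∀ a b c, K a b c → Simp a b c)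
    (hc : K (1 / 3) (1 / 3) (1 / 3)) : BExp centre K where
  sup := h
  add _ _ _ _ := rfl
  smul _ _ := rfl
  nonneg f hf := hf _ _ _ hc
  congr f g hfg := hfg _ _ _ hc
  one := rfl
  swap _ := rfl
  cyc _ := rfl

theorem Pk_propsG {E' : Ex3} (hE' : BExp E' MsgI) (h2 : 0 ≤ E' fG) (k : ℕ) :
    BExp (Pk E' k) Simp ∧ 0 ≤ Pk E' k fG := by
  induction k with
  | zero =>
    refine ⟨centre_bexp (fun _ _ _ h => h) simp_centre, ?_⟩
    show 0 ≤ fG (1 / 3) (1 / 3) (1 / 3)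
    unfold fG I2 I3
    norm_num
  | succ k ih =>
    refine ⟨bprod_bexp ih.1 hE' (fun _ _ _ h => h) (fun a b c p q r h1 h2 hD => ?_),
      class_bprodG ih.1 hE' ih.2 h2⟩
    exact prod_simp h1 h2.simp hD

/-- a numerical consequence of the one-step inequality -/
theorem M_bound {M : ℕ → ℝ} {b : ℝ} (h0 : M 0 = 0) (hnn : ∀ k, 0 ≤ M k) (hb0 : 0 ≤ b) (hb1 : b ≤ 1)
    (step : ∀ k, M (k + 1) ≤ M k + b - 1 / 100 * M k * b) (k : ℕ) :
    M k ≤ k * b - 1 / 100 * b ^ 2 * (if 2 ≤ k then 1 else 0) := by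
  have a1 : M 1 ≤ b := by
    have := step 0
    rw [h0] at this
    linarith
  have a2 : M 2 ≤ 2 * b - 1 / 100 * b ^ 2 := by
    have := step 1
    have h3 : 0 ≤ (b - M 1) * (1 - 1 / 100 * b) :=
      mul_nonneg (by linarith) (by linarith)
    nlinarith
  have key : ∀ j : ℕ, M (j + 2) ≤ (j + 2) * b - 1 / 100 * b ^ 2 := by
    intro j
    induction j with
    | zero => simpa using a2
    | succ j ih =>
      have h3 := step (j + 2)
      have h4 := hnn (j + 2)
      have h5 : 0 ≤ M (j + 2) * b := mul_nonneg h4 hb0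
      have e : j + 1 + 2 = j + 2 + 1 := by ring
      rw [e]
      push_cast
      nlinarith
  match k with
  | 0 => simp [h0]
  | 1 =>
    simpa using a1
  | j + 2 =>
    have := key j
    have hj : 2 ≤ j + 2 := by omega
    simp only [hj, if_true]
    push_cast
    linarith

theorem vertexEx_bexp {K : ℝ → ℝ → ℝ → Prop} (h : ∀ a b c, K a b c → Simp a b c)
    (h1 : K 1 0 0) (h2 : K 0 1 0) (h3 : K 0 0 1) : BExp vertexEx K where
  sup := h
  add f g _ _ := by unfold vertexEx; ring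
  smul t f := by unfold vertexEx; ring
  nonneg f hf := by
    unfold vertexEx
    have h1 := hf 1 0 0 h1
    have h2 := hf 0 1 0 h2
    have h3 := hf 0 0 1 h3
    positivity
  congr f g hfg := by
    unfold vertexEx
    rw [hfg 1 0 0 h1, hfg 0 1 0 h2, hfg 0 0 1 h3]
  one := by unfold vertexEx; norm_num
  swap f := by unfold vertexEx; ring
  cyc f := by unfold vertexEx; ring

/-- the law of the posterior at depth `n` on the Galton-Watson tree, as a functional -/
noncomputable def gwEx (p : ℕ → ℝ) (lam : ℝ) : ℕ → Ex3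
  | 0 => vertexEx
  | n + 1 => mix p (fun k => Pk (chan lam (gwEx p lam n)) k)

theorem simp_v1 : Simp 1 0 0 := ⟨by norm_num, by norm_num, by norm_num, by norm_num⟩
theorem simp_v2 : Simp 0 1 0 := ⟨by norm_num, by norm_num, by norm_num, by norm_num⟩
theorem simp_v3 : Simp 0 0 1 := ⟨by norm_num, by norm_num, by norm_num, by norm_num⟩

/-- the class is invariant along the recursion when `lam < 1` -/
theorem gwEx_props {p : ℕ → ℝ} (hp0 : ∀ k, 0 ≤ p k) (hp1 : HasSum p 1) {lam : ℝ} (h0 : 0 ≤ lam)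
    (h1 : lam < 1) (n : ℕ) : BExp (gwEx p lam n) Simp ∧ 0 ≤ gwEx p lam n fG := by
  induction n with
  | zero =>
    refine ⟨vertexEx_bexp (fun _ _ _ h => h) simp_v1 simp_v2 simp_v3, ?_⟩
    show 0 ≤ vertexEx fG
    unfold vertexEx fG I2 I3
    norm_num
  | succ n ih =>
    have hpos : ∀ x : ℝ, 0 ≤ x → 0 < chanPt lam x := by
      intro x hx
      unfold chanPt
      have : 0 < (1 - lam) / 3 := by linarith
      positivity
    have hc : BExp (chan lam (gwEx p lam n)) MsgI :=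
      chan_bexp ih.1 h0 h1.le (fun _ _ _ h => h.simp) (fun a b c hK =>
        ⟨hpos _ hK.ha, hpos _ hK.hb, hpos _ hK.hc, by
          have := (chan_simp h0 h1.le hK).hs
          exact this⟩)
    have hm := class_chanG ih.1 h0 h1.le ih.2
    have hF := fun k => Pk_propsG hc hm k
    refine ⟨mix_bexp hp0 hp1 (fun k => (hF k).1) (fun _ _ _ h => h), ?_⟩
    exact tsum_nonneg (fun k => mul_nonneg (hp0 k) (hF k).2)

/-- the value of the weights of a `k`-fold product -/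
noncomputable def ind2 (k : ℕ) : ℝ := if 2 ≤ k then 1 else 0

theorem ind2_nonneg (k : ℕ) : 0 ≤ ind2 k := by
  unfold ind2
  split_ifs <;> norm_num

theorem ind2_le (k : ℕ) : ind2 k ≤ 1 := by
  unfold ind2
  split_ifs <;> norm_num

/-- the probability of at least two children -/
noncomputable def pTwo (p : ℕ → ℝ) : ℝ := ∑' k, p k * ind2 k

theorem summable_pTwo {p : ℕ → ℝ} (hp0 : ∀ k, 0 ≤ p k) (hp1 : Summable p) :
    Summable (fun k => p k * ind2 k) := by
  refine Summable.of_nonneg_of_le (fun k => mul_nonneg (hp0 k) (ind2_nonneg k)) (fun k => ?_) hp1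
  have := mul_le_mul_of_nonneg_left (ind2_le k) (hp0 k)
  linarith

theorem pTwo_nonneg {p : ℕ → ℝ} (hp0 : ∀ k, 0 ≤ p k) : 0 ≤ pTwo p :=
  tsum_nonneg (fun k => mul_nonneg (hp0 k) (ind2_nonneg k))

theorem pTwo_pos {p : ℕ → ℝ} (hp0 : ∀ k, 0 ≤ p k) (hp1 : Summable p) {k : ℕ} (hk : 2 ≤ k)
    (hpk : 0 < p k) : 0 < pTwo p := by
  have h1 : p k * ind2 k ≤ pTwo p :=
    (summable_pTwo hp0 hp1).le_tsum k (fun j _ => mul_nonneg (hp0 j) (ind2_nonneg j))
  have h2 : ind2 k = 1 := by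
    unfold ind2
    simp [hk]
  rw [h2, mul_one] at h1
  linarith

/-- the mixture step of the recursion -/
theorem mix_step {p : ℕ → ℝ} (hp0 : ∀ k, 0 ≤ p k) (hp1 : HasSum p 1) {d : ℝ}
    (hpd : HasSum (fun k : ℕ => (k : ℝ) * p k) d) {F : ℕ → Ex3} {K : ℝ → ℝ → ℝ → Prop}
    (hF : ∀ k, BExp (F k) K) {b : ℝ} (hb0 : 0 ≤ b) (hb1 : b ≤ 1)
    (h0 : F 0 I2 = 0)
    (step : ∀ k, F (k + 1) I2 ≤ F k I2 + b - 1 / 100 * F k I2 * b) :
    mix p F I2 ≤ d * b - 1 / 100 * b ^ 2 * pTwo p := by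
  have hnn : ∀ k, 0 ≤ F k I2 := fun k => (hF k).nonneg _ (fun a b c _ => I2_nonneg a b c)
  have hM := M_bound h0 hnn hb0 hb1 step
  have hsum : HasSum (fun k : ℕ => ((k : ℝ) * p k) * b - 1 / 100 * b ^ 2 * (p k * ind2 k))
      (d * b - 1 / 100 * b ^ 2 * pTwo p) :=
    (hpd.mul_right b).sub ((summable_pTwo hp0 hp1.summable).hasSum.mul_left (1 / 100 * b ^ 2))
  have hle : ∀ k, p k * F k I2 ≤ ((k : ℝ) * p k) * b - 1 / 100 * b ^ 2 * (p k * ind2 k) := by
    intro k
    have h1 := mul_le_mul_of_nonneg_left (hM k) (hp0 k)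
    refine le_trans h1 (le_of_eq ?_)
    unfold ind2
    ring
  have := (mix_summable hp0 hp1.summable hF bd_I2).tsum_le_tsum hle hsum.summable
  rw [hsum.tsum_eq] at this
  exact this

theorem I2_le_one {E : Ex3} {K : ℝ → ℝ → ℝ → Prop} (hE : BExp E K) : E I2 ≤ 1 := by
  have h3 : E I2 ≤ E (fun _ _ _ => 1) :=
    hE.mono bd_I2 (Bd.const 1) (fun a b c hK => by
      have := I2_le (hE.sup a b c hK)
      linarith)
  rw [hE.one] at h3
  exact h3

theorem I2_mean_nonneg {E : Ex3} {K : ℝ → ℝ → ℝ → Prop} (hE : BExp E K) : 0 ≤ E I2 :=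
  hE.nonneg _ (fun a b c _ => I2_nonneg a b c)

/-- the one-step recursion for the second moment when `lam < 1` -/
theorem gwEx_step {p : ℕ → ℝ} (hp0 : ∀ k, 0 ≤ p k) (hp1 : HasSum p 1) {d : ℝ}
    (hpd : HasSum (fun k : ℕ => (k : ℝ) * p k) d) {lam : ℝ} (h0 : 0 ≤ lam) (h1 : lam < 1) (n : ℕ) :
    gwEx p lam (n + 1) I2
      ≤ d * lam ^ 2 * gwEx p lam n I2 - 1 / 100 * pTwo p * lam ^ 4 * (gwEx p lam n I2) ^ 2 := by
  have hP := gwEx_props hp0 hp1 h0 h1 n
  have hpos : ∀ x : ℝ, 0 ≤ x → 0 < chanPt lam x := by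
    intro x hx
    unfold chanPt
    have : 0 < (1 - lam) / 3 := by linarith
    positivity
  have hc : BExp (chan lam (gwEx p lam n)) MsgI :=
    chan_bexp hP.1 h0 h1.le (fun _ _ _ h => h.simp) (fun a b c hK =>
      ⟨hpos _ hK.ha, hpos _ hK.hb, hpos _ hK.hc, by
        have := (chan_simp h0 h1.le hK).hs
        exact this⟩)
  have hm := class_chanG hP.1 h0 h1.le hP.2
  have hF := fun k => Pk_propsG hc hm k
  have hb0 := I2_mean_nonneg hc
  have hb1 := I2_le_one hc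
  have key := mix_step hp0 hp1 hpd (fun k => (hF k).1) hb0 hb1 (Pk_zero_I2 _)
    (fun k => m2_bprod_leG (hF k).1 hc (hF k).2 hm)
  have e : gwEx p lam (n + 1) I2 = mix p (fun k => Pk (chan lam (gwEx p lam n)) k) I2 := rfl
  rw [e]
  refine le_trans key (le_of_eq ?_)
  rw [m2_chanG hP.1]
  ring

/-- convergence of the recursion -/
theorem tendsto_of_rec {m : ℕ → ℝ} (hnn : ∀ n, 0 ≤ m n) {r g : ℝ} (hr0 : 0 ≤ r) (hr1 : r ≤ 1)
    (hg : 0 ≤ g) (hrec : ∀ n, m (n + 1) ≤ r * m n - g * (m n) ^ 2) (hcase : r < 1 ∨ 0 < g) :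
    Tendsto m atTop (𝓝 0) := by
  rcases hcase with hr | hg1
  · have hpow : ∀ n, m n ≤ m 0 * r ^ n := by
      intro n
      induction n with
      | zero => simp
      | succ n ih =>
        have h1 := hrec n
        have h2 : 0 ≤ g * (m n) ^ 2 := by positivity
        have h3 : r * m n ≤ r * (m 0 * r ^ n) := mul_le_mul_of_nonneg_left ih hr0
        calc m (n + 1) ≤ r * (m 0 * r ^ n) := by linarith
          _ = m 0 * r ^ (n + 1) := by ring
    have hlim : Tendsto (fun n => m 0 * r ^ n) atTop (𝓝 (m 0 * 0)) :=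
      (tendsto_pow_atTop_nhds_zero_of_lt_one hr0 hr).const_mul _
    rw [mul_zero] at hlim
    exact squeeze_zero hnn hpow hlim
  · have hrec' : ∀ n, m (n + 1) ≤ m n - g * (m n) ^ 2 := by
      intro n
      have h1 := hrec n
      have h3 : r * m n ≤ 1 * m n := mul_le_mul_of_nonneg_right hr1 (hnn n)
      linarith
    have hanti : Antitone m := by
      refine antitone_nat_of_succ_le (fun n => ?_)
      have := hrec' n
      have h4 : 0 ≤ g * (m n) ^ 2 := by positivity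
      linarith
    have hbdd : BddBelow (Set.range m) := ⟨0, by rintro _ ⟨n, rfl⟩; exact hnn n⟩
    have hlim := tendsto_atTop_ciInf hanti hbdd
    set L := ⨅ n, m n with hL
    have hL0 : 0 ≤ L := le_ciInf hnn
    have hl1 : Tendsto (fun n => m (n + 1)) atTop (𝓝 L) := hlim.comp (tendsto_add_atTop_nat 1)
    have hl2 : Tendsto (fun n => m n - g * (m n) ^ 2) atTop (𝓝 (L - g * L ^ 2)) :=
      hlim.sub ((hlim.pow 2).const_mul _)
    have hle : L ≤ L - g * L ^ 2 := le_of_tendsto_of_tendsto' hl1 hl2 hrec'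
    have hL2 : L ^ 2 = 0 := by
      have h5 : 0 ≤ g * L ^ 2 := by positivity
      have h6 : g * L ^ 2 = 0 := by linarith
      rcases mul_eq_zero.1 h6 with h7 | h7
      · exact absurd h7 hg1.ne'
      · exact h7
    have : L = 0 := by simpa using hL2
    rwa [this] at hlim

/-! ### the case `lam = 1` -/

/-- the vertices and the centre of the simplex -/
def Kv (a b c : ℝ) : Prop :=
  (a = 1 / 3 ∧ b = 1 / 3 ∧ c = 1 / 3) ∨ (a = 1 ∧ b = 0 ∧ c = 0) ∨ (a = 0 ∧ b = 1 ∧ c = 0)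
    ∨ (a = 0 ∧ b = 0 ∧ c = 1)

theorem Kv.simp {a b c : ℝ} (h : Kv a b c) : Simp a b c := by
  rcases h with ⟨rfl, rfl, rfl⟩ | ⟨rfl, rfl, rfl⟩ | ⟨rfl, rfl, rfl⟩ | ⟨rfl, rfl, rfl⟩
  · exact simp_centre
  · exact simp_v1
  · exact simp_v2
  · exact simp_v3

theorem Kv.cyc {a b c : ℝ} (h : Kv a b c) : Kv b c a := by
  unfold Kv at *
  rcases h with ⟨rfl, rfl, rfl⟩ | ⟨rfl, rfl, rfl⟩ | ⟨rfl, rfl, rfl⟩ | ⟨rfl, rfl, rfl⟩ <;> norm_num

theorem Kv.swap {a b c : ℝ} (h : Kv a b c) : Kv b a c := by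
  unfold Kv at *
  rcases h with ⟨rfl, rfl, rfl⟩ | ⟨rfl, rfl, rfl⟩ | ⟨rfl, rfl, rfl⟩ | ⟨rfl, rfl, rfl⟩ <;> norm_num

theorem Kv.prod {a b c p q r : ℝ} (h : Kv a b c) (h' : Kv p q r)
    (hD : 0 < a * p + b * q + c * r) :
    Kv (a * p / (a * p + b * q + c * r)) (b * q / (a * p + b * q + c * r))
      (c * r / (a * p + b * q + c * r)) := by
  unfold Kv at *
  rcases h with ⟨rfl, rfl, rfl⟩ | ⟨rfl, rfl, rfl⟩ | ⟨rfl, rfl, rfl⟩ | ⟨rfl, rfl, rfl⟩ <;>
    rcases h' with ⟨rfl, rfl, rfl⟩ | ⟨rfl, rfl, rfl⟩ | ⟨rfl, rfl, rfl⟩ | ⟨rfl, rfl, rfl⟩ <;>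
    first
      | (exfalso; norm_num at hD; done)
      | norm_num

/-- the exact product rule on the vertices and the centre, for one permutation -/
theorem kv_pointwise {a b c p q r : ℝ} (h : Kv a b c) (h' : Kv p q r) :
    (1 / 6) * (wt I2 a b c p q r + wt I2 a b c q r p + wt I2 a b c r p q
        + wt I2 a b c q p r + wt I2 a b c p r q + wt I2 a b c r q p)
      = I2 a b c + I2 p q r - 3 / 2 * I2 a b c * I2 p q r := by
  unfold Kv at h h'
  rcases h with ⟨rfl, rfl, rfl⟩ | ⟨rfl, rfl, rfl⟩ | ⟨rfl, rfl, rfl⟩ | ⟨rfl, rfl, rfl⟩ <;>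
    rcases h' with ⟨rfl, rfl, rfl⟩ | ⟨rfl, rfl, rfl⟩ | ⟨rfl, rfl, rfl⟩ | ⟨rfl, rfl, rfl⟩ <;>
    norm_num [wt, I2]

/-- integrated form of the product rule on the vertices and the centre -/
theorem m2_bprod_leV {E E' : Ex3} (hE : BExp E Kv) (hE' : BExp E' Kv) :
    bprod E E' I2 ≤ E I2 + E' I2 - 1 / 100 * E I2 * E' I2 := by
  have hinner : ∀ a b c, Kv a b c →
      E' (fun p q r => wt I2 a b c p q r) ≤ E' I2 + (1 - 1 / 100 * E' I2) * I2 a b c := by
    intro a b c hK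
    have hs := hK.simp
    rw [← hE'.sym6 (bd_wt bd_I2 hs)]
    have hmono := hE'.mono (f := fun p q r => (1 / 6) * (wt I2 a b c p q r + wt I2 a b c q r p
        + wt I2 a b c r p q + wt I2 a b c q p r + wt I2 a b c p r q + wt I2 a b c r q p))
      (g := fun p q r => I2 a b c + (1 - 1 / 100 * I2 a b c) * I2 p q r + 0 * I2 p q r)
      (Bd.sym6 (bd_wt bd_I2 hs))
      (((Bd.const _).add (Bd.smul _ bd_I2)).add (Bd.smul _ bd_I2))
      (fun p q r hK' => by
        rw [kv_pointwise hK hK']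
        have h1 := I2_nonneg a b c
        have h2 := I2_nonneg p q r
        have := mul_nonneg h1 h2
        nlinarith)
    refine le_trans hmono (le_of_eq ?_)
    rw [hE'.lin3 _ _ _ bd_I2 bd_I2]
    ring
  have h3 : bprod E E' I2 ≤ E (fun a b c => E' I2 + (1 - 1 / 100 * E' I2) * I2 a b c
      + 0 * I2 a b c) :=
    hE.mono (bd_inner bd_I2 hE')
      (((Bd.const _).add (Bd.smul _ bd_I2)).add (Bd.smul _ bd_I2))
      (fun a b c hK => by
        have := hinner a b c hK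
        linarith)
  rw [hE.lin3 _ _ _ bd_I2 bd_I2] at h3
  nlinarith

theorem chanPt_one (x : ℝ) : chanPt 1 x = x := by
  unfold chanPt
  ring

theorem Pk_propsV {E' : Ex3} (hE' : BExp E' Kv) (k : ℕ) : BExp (Pk E' k) Kv := by
  induction k with
  | zero =>
    exact centre_bexp (fun _ _ _ h => h.simp) (Or.inl ⟨rfl, rfl, rfl⟩)
  | succ k ih =>
    exact bprod_bexp ih hE' (fun _ _ _ h => h.simp) (fun a b c p q r h1 h2 hD => h1.prod h2 hD)

theorem gwEx_propsV {p : ℕ → ℝ} (hp0 : ∀ k, 0 ≤ p k) (hp1 : HasSum p 1) (n : ℕ) :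
    BExp (gwEx p 1 n) Kv := by
  induction n with
  | zero =>
    exact vertexEx_bexp (fun _ _ _ h => h.simp) (Or.inr (Or.inl ⟨rfl, rfl, rfl⟩))
      (Or.inr (Or.inr (Or.inl ⟨rfl, rfl, rfl⟩))) (Or.inr (Or.inr (Or.inr ⟨rfl, rfl, rfl⟩)))
  | succ n ih =>
    have hc : BExp (chan 1 (gwEx p 1 n)) Kv :=
      chan_bexp ih (by norm_num) (by norm_num) (fun _ _ _ h => h.simp) (fun a b c hK => by
        rw [chanPt_one, chanPt_one, chanPt_one]
        exact hK)
    exact mix_bexp hp0 hp1 (fun k => Pk_propsV hc k) (fun _ _ _ h => h.simp)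

theorem gwEx_stepV {p : ℕ → ℝ} (hp0 : ∀ k, 0 ≤ p k) (hp1 : HasSum p 1) {d : ℝ}
    (hpd : HasSum (fun k : ℕ => (k : ℝ) * p k) d) (n : ℕ) :
    gwEx p 1 (n + 1) I2 ≤ d * 1 ^ 2 * gwEx p 1 n I2 - 1 / 100 * pTwo p * 1 ^ 4 * (gwEx p 1 n I2) ^ 2 := by
  have hP := gwEx_propsV hp0 hp1 n
  have hc : BExp (chan 1 (gwEx p 1 n)) Kv :=
    chan_bexp hP (by norm_num) (by norm_num) (fun _ _ _ h => h.simp) (fun a b c hK => by
      rw [chanPt_one, chanPt_one, chanPt_one]
      exact hK)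
  have hF := fun k => Pk_propsV hc k
  have hb0 := I2_mean_nonneg hc
  have hb1 := I2_le_one hc
  have key := mix_step hp0 hp1 hpd hF hb0 hb1 (Pk_zero_I2 _)
    (fun k => m2_bprod_leV (hF k) hc)
  have e : gwEx p 1 (n + 1) I2 = mix p (fun k => Pk (chan 1 (gwEx p 1 n)) k) I2 := rfl
  rw [e]
  refine le_trans key (le_of_eq ?_)
  rw [m2_chanG hP]
  ring

/-- the functional is a symmetric expectation on the simplex for every `lam` in `[0,1]` -/
theorem gwEx_bexp {p : ℕ → ℝ} (hp0 : ∀ k, 0 ≤ p k) (hp1 : HasSum p 1) {lam : ℝ} (h0 : 0 ≤ lam)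
    (h1 : lam ≤ 1) (n : ℕ) : BExp (gwEx p lam n) Simp := by
  induction n with
  | zero => exact vertexEx_bexp (fun _ _ _ h => h) simp_v1 simp_v2 simp_v3
  | succ n ih =>
    have hc : BExp (chan lam (gwEx p lam n)) Simp :=
      chan_bexp ih h0 h1 (fun _ _ _ h => h) (fun a b c hK => chan_simp h0 h1 hK)
    have hF : ∀ k, BExp (Pk (chan lam (gwEx p lam n)) k) Simp := by
      intro k
      induction k with
      | zero => exact centre_bexp (fun _ _ _ h => h) simp_centre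
      | succ k ih2 =>
        exact bprod_bexp ih2 hc (fun _ _ _ h => h) (fun a b c q r s h1 h2 hD => prod_simp h1 h2 hD)
    exact mix_bexp hp0 hp1 hF (fun _ _ _ h => h)

/-- The second moment tends to zero at and below the Kesten-Stigum bound. -/
theorem gwEx_tendsto {p : ℕ → ℝ} (hp0 : ∀ k, 0 ≤ p k) (hp1 : HasSum p 1) {d : ℝ}
    (hpd : HasSum (fun k : ℕ => (k : ℝ) * p k) d) {lam : ℝ} (h0 : 0 ≤ lam) (h1 : lam ≤ 1)
    (hKS : d * lam ^ 2 ≤ 1) (hb : (∃ k, 2 ≤ k ∧ 0 < p k) ∨ d * lam ^ 2 < 1) :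
    Tendsto (fun n => gwEx p lam n I2) atTop (𝓝 0) := by
  have hd0 : 0 ≤ d := hpd.nonneg (fun k => mul_nonneg (Nat.cast_nonneg k) (hp0 k))
  have hcase : d * lam ^ 2 < 1 ∨ 0 < 1 / 100 * pTwo p * lam ^ 4 := by
    by_cases hlt : d * lam ^ 2 < 1
    · exact Or.inl hlt
    · right
      rcases hb with ⟨k, hk, hpk⟩ | hb
      · have hlam : lam ≠ 0 := by
          rintro rfl
          norm_num at hlt
        have := pTwo_pos hp0 hp1.summable hk hpk
        positivity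
      · exact absurd hb hlt
  have hgn : 0 ≤ 1 / 100 * pTwo p * lam ^ 4 := by
    have := pTwo_nonneg hp0
    positivity
  rcases h1.lt_or_eq with h1' | h1'
  · exact tendsto_of_rec (fun n => I2_mean_nonneg (gwEx_bexp hp0 hp1 h0 h1 n))
      (by positivity) hKS hgn (fun n => gwEx_step hp0 hp1 hpd h0 h1' n) hcase
  · subst h1'
    exact tendsto_of_rec (fun n => I2_mean_nonneg (gwEx_bexp hp0 hp1 h0 h1 n))
      (by positivity) hKS hgn (fun n => gwEx_stepV hp0 hp1 hpd n) hcase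

end Vale.Agent.Lib.P154.GW
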