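import Vale.Agent.Lib.P154.GW.Defs
import Vale.Agent.Lib.P154.GW.Rec
import Vale.Agent.Lib.P154.Tree

/-!
The link between the tree recursion and the functionals, with infinite sums.
-/

namespace Vale.Agent.Lib.P154.GW

open scoped BigOperators
open Filter Topology

/-- `E` is the expectation, on bounded functions, with weights `w` at the points `y` -/
structure Rep (E : Ex3) {C : Type} (w y0 y1 y2 : C → ℝ) : Prop where
  w_nonneg : ∀ t, 0 ≤ w t
  w_summable : Summable w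
  pts : ∀ t, w t ≠ 0 → Simp (y0 t) (y1 t) (y2 t)
  eq : ∀ f : Fn3, Bd f → E f = ∑' t, w t * f (y0 t) (y1 t) (y2 t)

namespace Rep

variable {E : Ex3} {C : Type} {w y0 y1 y2 : C → ℝ}

/-- the bound of the integrand -/
theorem term_bound (h : Rep E w y0 y1 y2) {f : Fn3} {B : ℝ}
    (hB : ∀ a b c, Simp a b c → |f a b c| ≤ B) (t : C) :
    |w t * f (y0 t) (y1 t) (y2 t)| ≤ w t * B := by
  by_cases h0 : w t = 0
  · rw [h0]
    simp
  · rw [abs_mul, abs_of_nonneg (h.w_nonneg t)]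
    exact mul_le_mul_of_nonneg_left (hB _ _ _ (h.pts t h0)) (h.w_nonneg t)

theorem summable_term (h : Rep E w y0 y1 y2) {f : Fn3} (hf : Bd f) :
    Summable (fun t => w t * f (y0 t) (y1 t) (y2 t)) := by
  obtain ⟨B, hB⟩ := hf
  exact Summable.of_norm_bounded (g := fun t => w t * B) (h.w_summable.mul_right B)
    (fun t => by
      rw [Real.norm_eq_abs]
      exact h.term_bound hB t)

/-- change of the index type -/
theorem equiv {C' : Type} (h : Rep E w y0 y1 y2) (e : C' ≃ C) :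
    Rep E (fun t => w (e t)) (fun t => y0 (e t)) (fun t => y1 (e t)) (fun t => y2 (e t)) where
  w_nonneg t := h.w_nonneg _
  w_summable := (e.summable_iff (f := w)).2 h.w_summable
  pts t ht := h.pts _ ht
  eq f hf := by
    rw [h.eq f hf]
    exact (e.tsum_eq (fun t => w t * f (y0 t) (y1 t) (y2 t))).symm

/-- change of the weights and points on the support -/
theorem congr {w' z0 z1 z2 : C → ℝ} (h : Rep E w y0 y1 y2) (hw : ∀ t, w' t = w t)
    (hz : ∀ t, w t ≠ 0 → z0 t = y0 t ∧ z1 t = y1 t ∧ z2 t = y2 t) : Rep E w' z0 z1 z2 where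
  w_nonneg t := by rw [hw]; exact h.w_nonneg t
  w_summable := by
    have : w' = w := funext hw
    rw [this]
    exact h.w_summable
  pts t ht := by
    rw [hw] at ht
    obtain ⟨e0, e1, e2⟩ := hz t ht
    rw [e0, e1, e2]
    exact h.pts t ht
  eq f hf := by
    rw [h.eq f hf]
    refine tsum_congr (fun t => ?_)
    rw [hw]
    by_cases h0 : w t = 0
    · rw [h0]
      ring
    · obtain ⟨e0, e1, e2⟩ := hz t h0
      rw [e0, e1, e2]

end Rep

/-- the law of the channel output -/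
theorem Rep.chan {E : Ex3} {C : Type} {w y0 y1 y2 : C → ℝ} (h : Rep E w y0 y1 y2) {lam : ℝ}
    (h0 : 0 ≤ lam) (h1 : lam ≤ 1) :
    Rep (chan lam E) w (fun t => chanPt lam (y0 t)) (fun t => chanPt lam (y1 t))
      (fun t => chanPt lam (y2 t)) where
  w_nonneg := h.w_nonneg
  w_summable := h.w_summable
  pts t ht := chan_simp h0 h1 (h.pts t ht)
  eq f hf := h.eq _ (bd_chan h0 h1 hf)

/-- the law of the Bayesian product -/
theorem Rep.bprod {E E' : Ex3} {K2 : ℝ → ℝ → ℝ → Prop} (hE' : BExp E' K2) {C D : Type}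
    {w y0 y1 y2 : C → ℝ} {w' z0 z1 z2 : D → ℝ} (h : Rep E w y0 y1 y2) (h' : Rep E' w' z0 z1 z2) :
    Rep (bprod E E')
      (fun t : C × D => w t.1 * w' t.2 * (3 * (y0 t.1 * z0 t.2 + y1 t.1 * z1 t.2 + y2 t.1 * z2 t.2)))
      (fun t => y0 t.1 * z0 t.2 / (y0 t.1 * z0 t.2 + y1 t.1 * z1 t.2 + y2 t.1 * z2 t.2))
      (fun t => y1 t.1 * z1 t.2 / (y0 t.1 * z0 t.2 + y1 t.1 * z1 t.2 + y2 t.1 * z2 t.2))
      (fun t => y2 t.1 * z2 t.2 / (y0 t.1 * z0 t.2 + y1 t.1 * z1 t.2 + y2 t.1 * z2 t.2)) := by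
  set W : C × D → ℝ :=
    fun t : C × D => w t.1 * w' t.2 * (3 * (y0 t.1 * z0 t.2 + y1 t.1 * z1 t.2 + y2 t.1 * z2 t.2))
    with hW
  have hww : Summable (fun t : C × D => w t.1 * w' t.2) :=
    h.w_summable.mul_of_nonneg h'.w_summable h.w_nonneg h'.w_nonneg
  have hsimp : ∀ t : C × D, w t.1 * w' t.2 ≠ 0 →
      Simp (y0 t.1) (y1 t.1) (y2 t.1) ∧ Simp (z0 t.2) (z1 t.2) (z2 t.2) := by
    intro t ht
    exact ⟨h.pts _ (left_ne_zero_of_mul ht), h'.pts _ (right_ne_zero_of_mul ht)⟩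
  have hwnn : ∀ t : C × D, 0 ≤ w t.1 * w' t.2 :=
    fun t => mul_nonneg (h.w_nonneg _) (h'.w_nonneg _)
  -- the bound for the double sum
  have hbound : ∀ {f : Fn3} {B : ℝ}, (∀ a b c, Simp a b c → |f a b c| ≤ B) → ∀ t : C × D,
      |w t.1 * w' t.2 * wt f (y0 t.1) (y1 t.1) (y2 t.1) (z0 t.2) (z1 t.2) (z2 t.2)|
        ≤ w t.1 * w' t.2 * (3 * B) := by
    intro f B hB t
    by_cases h0 : w t.1 * w' t.2 = 0
    · rw [h0]
      simp
    · obtain ⟨s1, s2⟩ := hsimp t h0
      rw [abs_mul, abs_of_nonneg (hwnn t)]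
      exact mul_le_mul_of_nonneg_left (wt_bound hB s1 s2) (hwnn t)
  have hsum2 : ∀ {f : Fn3}, Bd f → Summable
      (fun t : C × D => w t.1 * w' t.2 * wt f (y0 t.1) (y1 t.1) (y2 t.1) (z0 t.2) (z1 t.2) (z2 t.2)) := by
    intro f hf
    obtain ⟨B, hB⟩ := hf
    exact Summable.of_norm_bounded (g := fun t : C × D => w t.1 * w' t.2 * (3 * B))
      (hww.mul_right _) (fun t => by
        rw [Real.norm_eq_abs]
        exact hbound hB t)
  have hWeq : ∀ t : C × D, W t = w t.1 * w' t.2 * wt (fun _ _ _ => 1) (y0 t.1) (y1 t.1) (y2 t.1)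
      (z0 t.2) (z1 t.2) (z2 t.2) := by
    intro t
    rw [hW]
    unfold wt
    ring
  refine ⟨fun t => ?_, ?_, fun t ht => ?_, fun f hf => ?_⟩
  · by_cases h0 : w t.1 * w' t.2 = 0
    · show 0 ≤ w t.1 * w' t.2 * _
      rw [h0, zero_mul]
    · obtain ⟨s1, s2⟩ := hsimp t h0
      exact mul_nonneg (hwnn t) (by have := dot_nonneg s1 s2; positivity)
  · have := hsum2 (Bd.const (1 : ℝ))
    exact this.congr (fun t => (hWeq t).symm)
  · have h0 : w t.1 * w' t.2 ≠ 0 := left_ne_zero_of_mul ht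
    obtain ⟨s1, s2⟩ := hsimp t h0
    have hD : y0 t.1 * z0 t.2 + y1 t.1 * z1 t.2 + y2 t.1 * z2 t.2 ≠ 0 := by
      intro hz
      apply ht
      simp only [hW]
      rw [hz]
      ring
    exact prod_simp s1 s2 (lt_of_le_of_ne (dot_nonneg s1 s2) (Ne.symm hD))
  · -- the computation of the product law
    have hin : Bd (fun a b c => E' (fun p q r => wt f a b c p q r)) := bd_inner hf hE'
    have e1 : Vale.Agent.Lib.P154.bprod E E' f
        = E (fun a b c => E' (fun p q r => wt f a b c p q r)) := rfl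
    rw [e1, h.eq _ hin]
    have e2 : ∀ s : C, w s * E' (fun p q r => wt f (y0 s) (y1 s) (y2 s) p q r)
        = ∑' t : D, w s * w' t * wt f (y0 s) (y1 s) (y2 s) (z0 t) (z1 t) (z2 t) := by
      intro s
      by_cases h0 : w s = 0
      · simp [h0]
      · rw [h'.eq _ (bd_wt hf (h.pts s h0)), ← tsum_mul_left]
        refine tsum_congr (fun t => ?_)
        ring
    simp only [e2]
    rw [← (hsum2 hf).tsum_prod' (fun s => ((hsum2 hf).prod_factor s))]
    refine tsum_congr (fun t => ?_)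
    simp only [hW]
    unfold wt
    ring

/-- the likelihood-type weights of a tuple -/
noncomputable def tupW {C : Type} (w y0 y1 y2 : C → ℝ) (k : ℕ) (s : Fin k → C) : ℝ :=
  (∏ c, w (s c)) * (3 ^ k / 3 * (∏ c, y0 (s c) + ∏ c, y1 (s c) + ∏ c, y2 (s c)))

/-- the coordinates of a tuple -/
noncomputable def tupX {C : Type} (y0 y1 y2 y : C → ℝ) (k : ℕ) (s : Fin k → C) : ℝ :=
  (∏ c, y (s c)) / (∏ c, y0 (s c) + ∏ c, y1 (s c) + ∏ c, y2 (s c))

/-- adding a last coordinate -/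
def consE (C : Type) (k : ℕ) : (Fin k → C) × C ≃ (Fin (k + 1) → C) :=
  (Equiv.prodComm _ _).trans (Fin.consEquiv (fun _ : Fin (k + 1) => C))

theorem prod_consE {C : Type} {k : ℕ} (g : C → ℝ) (b : Fin k → C) (a : C) :
    ∏ c, g (consE C k (b, a) c) = g a * ∏ c, g (b c) := by
  rw [Fin.prod_univ_succ]
  rfl

theorem alg_w {Wb wa L0 L1 L2 y0 y1 y2 : ℝ} (k : ℕ) (h0 : 0 ≤ L0) (h1 : 0 ≤ L1) (h2 : 0 ≤ L2) :
    (wa * Wb) * (3 ^ (k + 1) / 3 * (y0 * L0 + y1 * L1 + y2 * L2))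
      = Wb * (3 ^ k / 3 * (L0 + L1 + L2)) * wa *
        (3 * (L0 / (L0 + L1 + L2) * y0 + L1 / (L0 + L1 + L2) * y1 + L2 / (L0 + L1 + L2) * y2)) := by
  rcases (add_nonneg (add_nonneg h0 h1) h2).eq_or_lt with hS | hS
  · have z0 : L0 = 0 := by linarith
    have z1 : L1 = 0 := by linarith
    have z2 : L2 = 0 := by linarith
    rw [z0, z1, z2]
    ring
  · have hne := hS.ne'
    field_simp
    ring

theorem alg_x {Wb wa L0 L1 L2 y0 y1 y2 : ℝ} {k : ℕ} (h0 : 0 ≤ L0) (h1 : 0 ≤ L1) (h2 : 0 ≤ L2)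
    (hs : Wb * (3 ^ k / 3 * (L0 + L1 + L2)) * wa *
        (3 * (L0 / (L0 + L1 + L2) * y0 + L1 / (L0 + L1 + L2) * y1 + L2 / (L0 + L1 + L2) * y2)) ≠ 0)
    {y L : ℝ} :
    y * L / (y0 * L0 + y1 * L1 + y2 * L2)
      = (L / (L0 + L1 + L2) * y) /
        (L0 / (L0 + L1 + L2) * y0 + L1 / (L0 + L1 + L2) * y1 + L2 / (L0 + L1 + L2) * y2) := by
  rcases (add_nonneg (add_nonneg h0 h1) h2).eq_or_lt with hS | hS
  · exfalso
    apply hs
    rw [← hS]
    ring
  · have hne := hS.ne'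
    have e0 : L0 / (L0 + L1 + L2) * y0 + L1 / (L0 + L1 + L2) * y1 + L2 / (L0 + L1 + L2) * y2
        = (y0 * L0 + y1 * L1 + y2 * L2) / (L0 + L1 + L2) := by
      field_simp
    rw [e0]
    have hD : y0 * L0 + y1 * L1 + y2 * L2 ≠ 0 := by
      intro hz
      apply hs
      rw [e0, hz]
      ring
    field_simp

/-- The `k`-fold product functional as a sum over `k`-tuples. -/
theorem Pk_rep {E' : Ex3} {K2 : ℝ → ℝ → ℝ → Prop} (hE' : BExp E' K2) {C : Type}
    {w y0 y1 y2 : C → ℝ} (h : Rep E' w y0 y1 y2)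
    (hy0 : ∀ t, 0 ≤ y0 t) (hy1 : ∀ t, 0 ≤ y1 t) (hy2 : ∀ t, 0 ≤ y2 t) (k : ℕ) :
    Rep (Pk E' k) (tupW w y0 y1 y2 k) (tupX y0 y1 y2 y0 k) (tupX y0 y1 y2 y1 k)
      (tupX y0 y1 y2 y2 k) := by
  induction k with
  | zero =>
    refine ⟨fun s => ?_, ?_, fun s _ => ?_, fun f _ => ?_⟩
    · unfold tupW
      simp
      norm_num
    · exact (hasSum_fintype _).summable
    · unfold tupX
      simp
      exact ⟨by norm_num, by norm_num, by norm_num, by norm_num⟩
    · rw [tsum_fintype, Fintype.sum_unique]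
      simp only [Pk, centre, tupW, tupX, Finset.univ_eq_empty, Finset.prod_empty]
      norm_num
  | succ k ih =>
    have hP := Rep.bprod hE' ih h
    have hQ := hP.equiv (consE C k).symm
    have nn0 : ∀ b : Fin k → C, 0 ≤ ∏ c, y0 (b c) := fun b => Finset.prod_nonneg (fun c _ => hy0 _)
    have nn1 : ∀ b : Fin k → C, 0 ≤ ∏ c, y1 (b c) := fun b => Finset.prod_nonneg (fun c _ => hy1 _)
    have nn2 : ∀ b : Fin k → C, 0 ≤ ∏ c, y2 (b c) := fun b => Finset.prod_nonneg (fun c _ => hy2 _)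
    refine hQ.congr (fun s => ?_) (fun s hs => ?_)
    · obtain ⟨⟨b, a⟩, rfl⟩ := (consE C k).surjective s
      simp only [Equiv.symm_apply_apply, tupW, tupX, prod_consE]
      exact alg_w k (nn0 b) (nn1 b) (nn2 b)
    · obtain ⟨⟨b, a⟩, rfl⟩ := (consE C k).surjective s
      simp only [Equiv.symm_apply_apply, tupW, tupX, prod_consE] at hs ⊢
      exact ⟨alg_x (nn0 b) (nn1 b) (nn2 b) hs, alg_x (nn0 b) (nn1 b) (nn2 b) hs,
        alg_x (nn0 b) (nn1 b) (nn2 b) hs⟩

/-- the law of a mixture -/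
theorem Rep.mix {p : ℕ → ℝ} (hp0 : ∀ k, 0 ≤ p k) (hp1 : HasSum p 1) {F : ℕ → Ex3}
    {K : ℝ → ℝ → ℝ → Prop} (hF : ∀ k, BExp (F k) K) {C : ℕ → Type} {w y0 y1 y2 : ∀ k, C k → ℝ}
    (h : ∀ k, Rep (F k) (w k) (y0 k) (y1 k) (y2 k)) :
    Rep (GW.mix p F) (fun t : Σ k, C k => p t.1 * w t.1 t.2) (fun t => y0 t.1 t.2)
      (fun t => y1 t.1 t.2) (fun t => y2 t.1 t.2) := by
  have hnn : ∀ t : Σ k, C k, 0 ≤ p t.1 * w t.1 t.2 :=
    fun t => mul_nonneg (hp0 _) ((h _).w_nonneg _)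
  have hsum : Summable (fun t : Σ k, C k => p t.1 * w t.1 t.2) := by
    rw [summable_sigma_of_nonneg hnn]
    refine ⟨fun k => ?_, ?_⟩
    · have h2 : Summable (fun y => p k * w k y) := (h k).w_summable.mul_left (p k)
      exact h2
    have e : ∀ k, ∑' s, p k * w k s = p k := by
      intro k
      rw [tsum_mul_left]
      have e1 := (h k).eq (fun _ _ _ => 1) (Bd.const 1)
      rw [(hF k).one] at e1
      simp only [mul_one] at e1
      rw [← e1, mul_one]
    simp only [e]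
    exact hp1.summable
  refine ⟨hnn, hsum, fun t ht => (h _).pts _ (right_ne_zero_of_mul ht), fun f hf => ?_⟩
  obtain ⟨B, hB⟩ := id hf
  have hsum2 : Summable (fun t : Σ k, C k => p t.1 * w t.1 t.2 * f (y0 t.1 t.2) (y1 t.1 t.2) (y2 t.1 t.2)) := by
    refine Summable.of_norm_bounded (g := fun t : Σ k, C k => p t.1 * w t.1 t.2 * B)
      (hsum.mul_right _) (fun t => ?_)
    rw [Real.norm_eq_abs, mul_assoc, abs_mul, abs_of_nonneg (hp0 _), mul_assoc]
    exact mul_le_mul_of_nonneg_left ((h _).term_bound hB _) (hp0 _)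
  rw [hsum2.tsum_sigma' (fun k => hsum2.sigma_factor k)]
  refine tsum_congr (fun k => ?_)
  rw [(h k).eq f hf, ← tsum_mul_left]
  refine tsum_congr (fun s => ?_)
  ring

section tree

variable {p : ℕ → ℝ} {lam : ℝ}

/-- the total likelihood of a configuration -/
noncomputable def gwTot (p : ℕ → ℝ) (lam : ℝ) (n : ℕ) (s : GWConfig 3 n) : ℝ :=
  gwLik 3 p lam n 0 s + gwLik 3 p lam n 1 s + gwLik 3 p lam n 2 s

/-- the coordinates of the posterior -/
noncomputable def gwPost (p : ℕ → ℝ) (lam : ℝ) (n : ℕ) (i : Fin 3) (s : GWConfig 3 n) : ℝ :=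
  gwLik 3 p lam n i s / gwTot p lam n s

theorem gwLik_succ (p : ℕ → ℝ) (lam : ℝ) (n : ℕ) (i : Fin 3) (k : ℕ) (s : Fin k → GWConfig 3 n) :
    gwLik 3 p lam (n + 1) i ⟨k, s⟩ = p k * ∏ c : Fin k,
      (lam * gwLik 3 p lam n i (s c) + (1 - lam) / 3 * gwTot p lam n (s c)) := by
  show p k * (∏ c : Fin k, ∑ j : Fin 3, potts 3 lam i j * gwLik 3 p lam n j (s c)) = _
  congr 1
  refine Finset.prod_congr rfl (fun c _ => ?_)
  rw [sum_potts]
  rfl

theorem gwLik_nonneg (hp0 : ∀ k, 0 ≤ p k) (h0 : 0 ≤ lam) (h1 : lam ≤ 1) (n : ℕ) :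
    ∀ (i : Fin 3) (s : GWConfig 3 n), 0 ≤ gwLik 3 p lam n i s := by
  induction n with
  | zero =>
    intro i s
    show 0 ≤ spinDelta 3 i s
    unfold spinDelta
    split_ifs <;> norm_num
  | succ n ih =>
    rintro i ⟨k, s⟩
    rw [gwLik_succ]
    refine mul_nonneg (hp0 k) (Finset.prod_nonneg (fun c _ => ?_))
    have h2 := ih i (s c)
    have h3 : 0 ≤ gwTot p lam n (s c) :=
      add_nonneg (add_nonneg (ih 0 _) (ih 1 _)) (ih 2 _)
    have h4 : 0 ≤ (1 - lam) / 3 := by linarith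
    positivity

theorem gwTot_nonneg (hp0 : ∀ k, 0 ≤ p k) (h0 : 0 ≤ lam) (h1 : lam ≤ 1) (n : ℕ) (s : GWConfig 3 n) :
    0 ≤ gwTot p lam n s :=
  add_nonneg (add_nonneg (gwLik_nonneg hp0 h0 h1 n 0 s) (gwLik_nonneg hp0 h0 h1 n 1 s))
    (gwLik_nonneg hp0 h0 h1 n 2 s)

theorem gwPost_nonneg (hp0 : ∀ k, 0 ≤ p k) (h0 : 0 ≤ lam) (h1 : lam ≤ 1) (n : ℕ) (i : Fin 3)
    (s : GWConfig 3 n) : 0 ≤ gwPost p lam n i s :=
  div_nonneg (gwLik_nonneg hp0 h0 h1 n i s) (gwTot_nonneg hp0 h0 h1 n s)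

theorem gwLik_eq_zero (hp0 : ∀ k, 0 ≤ p k) (h0 : 0 ≤ lam) (h1 : lam ≤ 1) (n : ℕ) (i : Fin 3)
    (s : GWConfig 3 n) (hT : gwTot p lam n s = 0) : gwLik 3 p lam n i s = 0 := by
  have a0 := gwLik_nonneg hp0 h0 h1 n 0 s
  have a1 := gwLik_nonneg hp0 h0 h1 n 1 s
  have a2 := gwLik_nonneg hp0 h0 h1 n 2 s
  unfold gwTot at hT
  have hs : ∀ t : Fin 3, t = 0 ∨ t = 1 ∨ t = 2 := by decide
  rcases hs i with rfl | rfl | rfl <;> linarith

theorem gwPost_simp {n : ℕ} (hp0 : ∀ k, 0 ≤ p k) (h0 : 0 ≤ lam) (h1 : lam ≤ 1) (s : GWConfig 3 n)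
    (hT : gwTot p lam n s ≠ 0) :
    Simp (gwPost p lam n 0 s) (gwPost p lam n 1 s) (gwPost p lam n 2 s) := by
  refine ⟨gwPost_nonneg hp0 h0 h1 n 0 s, gwPost_nonneg hp0 h0 h1 n 1 s,
    gwPost_nonneg hp0 h0 h1 n 2 s, ?_⟩
  unfold gwPost
  rw [← add_div, ← add_div]
  exact div_self hT

/-- The functional of the recursion is the law of the posterior. -/
theorem gwEx_rep (hp0 : ∀ k, 0 ≤ p k) (hp1 : HasSum p 1) (h0 : 0 ≤ lam) (h1 : lam ≤ 1) (n : ℕ) :
    Rep (gwEx p lam n) (fun s : GWConfig 3 n => 1 / 3 * gwTot p lam n s)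
      (gwPost p lam n 0) (gwPost p lam n 1) (gwPost p lam n 2) := by
  induction n with
  | zero =>
    have hT : ∀ s : Fin 3, gwTot p lam 0 s = 1 := by
      intro s
      show spinDelta 3 0 s + spinDelta 3 1 s + spinDelta 3 2 s = 1
      exact delta_sum s
    let _ : Fintype (GWConfig 3 0) := inferInstanceAs (Fintype (Fin 3))
    refine ⟨fun s => ?_, (hasSum_fintype _).summable, fun s hs => ?_, fun f _ => ?_⟩
    · have := gwTot_nonneg hp0 h0 h1 0 s
      positivity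
    · exact gwPost_simp hp0 h0 h1 s (fun h => hs (by rw [h]; ring))
    · show vertexEx f = ∑' s : Fin 3, _
      rw [tsum_fintype, Fin.sum_univ_three]
      have v : ∀ (s i : Fin 3), gwPost p lam 0 i s = spinDelta 3 i s := by
        intro s i
        unfold gwPost
        rw [hT s, div_one]
        rfl
      have d00 : spinDelta 3 0 0 = 1 := by simp [spinDelta]
      have d01 : spinDelta 3 0 1 = 0 := by simp [spinDelta]
      have d02 : spinDelta 3 0 2 = 0 := by simp [spinDelta]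
      have d10 : spinDelta 3 1 0 = 0 := by simp [spinDelta]
      have d11 : spinDelta 3 1 1 = 1 := by simp [spinDelta]
      have d12 : spinDelta 3 1 2 = 0 := by simp [spinDelta]
      have d20 : spinDelta 3 2 0 = 0 := by simp [spinDelta]
      have d21 : spinDelta 3 2 1 = 0 := by simp [spinDelta]
      have d22 : spinDelta 3 2 2 = 1 := by simp [spinDelta]
      simp only [v, hT, d00, d01, d02, d10, d11, d12, d20, d21, d22]
      unfold vertexEx
      ring
  | succ n ih =>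
    have hB := gwEx_bexp hp0 hp1 h0 h1 n
    have hcB : BExp (chan lam (gwEx p lam n)) Simp :=
      chan_bexp hB h0 h1 (fun _ _ _ h => h) (fun a b c hK => chan_simp h0 h1 hK)
    have hc := ih.chan h0 h1
    have hy : ∀ (i : Fin 3) (t : GWConfig 3 n), 0 ≤ chanPt lam (gwPost p lam n i t) :=
      fun i t => chanPt_nonneg h0 h1 (gwPost_nonneg hp0 h0 h1 n i t)
    have hPk := fun k => Pk_rep hcB hc (hy 0) (hy 1) (hy 2) k
    have hF : ∀ k, BExp (Pk (chan lam (gwEx p lam n)) k) Simp := by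
      intro k
      induction k with
      | zero => exact centre_bexp (fun _ _ _ h => h) simp_centre
      | succ k ih2 =>
        exact bprod_bexp ih2 hcB (fun _ _ _ h => h) (fun a b c q r s h1 h2 hD => prod_simp h1 h2 hD)
    have hM := Rep.mix hp0 hp1 hF hPk
    -- the child factor
    have hchild : ∀ (i : Fin 3) (t : GWConfig 3 n),
        lam * gwLik 3 p lam n i t + (1 - lam) / 3 * gwTot p lam n t
          = gwTot p lam n t * chanPt lam (gwPost p lam n i t) := by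
      intro i t
      by_cases hT : gwTot p lam n t = 0
      · rw [hT, gwLik_eq_zero hp0 h0 h1 n i t hT]
        ring
      · unfold chanPt gwPost
        field_simp
    have hL : ∀ (i : Fin 3) (k : ℕ) (s : Fin k → GWConfig 3 n),
        gwLik 3 p lam (n + 1) i ⟨k, s⟩ = p k * ((∏ c, gwTot p lam n (s c))
          * ∏ c, chanPt lam (gwPost p lam n i (s c))) := by
      intro i k s
      rw [gwLik_succ, ← Finset.prod_mul_distrib]
      congr 1
      exact Finset.prod_congr rfl (fun c _ => hchild i (s c))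
    have hW : ∀ (k : ℕ) (s : Fin k → GWConfig 3 n), ∏ c, (1 / 3 * gwTot p lam n (s c))
        = (1 / 3) ^ k * ∏ c, gwTot p lam n (s c) := by
      intro k s
      rw [Finset.prod_mul_distrib]
      simp
    refine hM.congr ?_ ?_
    · rintro ⟨k, s⟩
      show 1 / 3 * gwTot p lam (n + 1) ⟨k, s⟩ = p k * tupW _ _ _ _ k s
      have htot : gwTot p lam (n + 1) ⟨k, s⟩ = gwLik 3 p lam (n + 1) 0 ⟨k, s⟩
          + gwLik 3 p lam (n + 1) 1 ⟨k, s⟩ + gwLik 3 p lam (n + 1) 2 ⟨k, s⟩ := rfl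
      rw [htot, hL, hL, hL]
      unfold tupW
      dsimp only
      rw [hW]
      have e3 : ((1 : ℝ) / 3) ^ k * 3 ^ k = 1 := by
        rw [← mul_pow]
        norm_num
      set T := ∏ c, gwTot p lam n (s c)
      set L0 := ∏ c, chanPt lam (gwPost p lam n 0 (s c))
      set L1 := ∏ c, chanPt lam (gwPost p lam n 1 (s c))
      set L2 := ∏ c, chanPt lam (gwPost p lam n 2 (s c))
      linear_combination (-(1 / 3) * p k * T * (L0 + L1 + L2)) * e3
    · rintro ⟨k, s⟩ hs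
      have hs' : p k * tupW (fun s => 1 / 3 * gwTot p lam n s)
          (fun t => chanPt lam (gwPost p lam n 0 t)) (fun t => chanPt lam (gwPost p lam n 1 t))
          (fun t => chanPt lam (gwPost p lam n 2 t)) k s ≠ 0 := hs
      have hpk : p k ≠ 0 := left_ne_zero_of_mul hs'
      have hs2 := right_ne_zero_of_mul hs'
      unfold tupW at hs2
      simp only [hW] at hs2
      have hTne : ∏ c, gwTot p lam n (s c) ≠ 0 :=
        right_ne_zero_of_mul (left_ne_zero_of_mul hs2)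
      have hSne : ∏ c, chanPt lam (gwPost p lam n 0 (s c)) + ∏ c, chanPt lam (gwPost p lam n 1 (s c))
          + ∏ c, chanPt lam (gwPost p lam n 2 (s c)) ≠ 0 :=
        right_ne_zero_of_mul (right_ne_zero_of_mul hs2)
      have hP : ∀ i : Fin 3, gwPost p lam (n + 1) i ⟨k, s⟩
          = (∏ c, chanPt lam (gwPost p lam n i (s c)))
            / (∏ c, chanPt lam (gwPost p lam n 0 (s c)) + ∏ c, chanPt lam (gwPost p lam n 1 (s c))
              + ∏ c, chanPt lam (gwPost p lam n 2 (s c))) := by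
        intro i
        have hpost : gwPost p lam (n + 1) i ⟨k, s⟩ = gwLik 3 p lam (n + 1) i ⟨k, s⟩
            / (gwLik 3 p lam (n + 1) 0 ⟨k, s⟩ + gwLik 3 p lam (n + 1) 1 ⟨k, s⟩
              + gwLik 3 p lam (n + 1) 2 ⟨k, s⟩) := rfl
        rw [hpost, hL, hL, hL, hL]
        set T := ∏ c, gwTot p lam n (s c)
        set L0 := ∏ c, chanPt lam (gwPost p lam n 0 (s c))
        set L1 := ∏ c, chanPt lam (gwPost p lam n 1 (s c))
        set L2 := ∏ c, chanPt lam (gwPost p lam n 2 (s c))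
        have : p k * (T * L0) + p k * (T * L1) + p k * (T * L2) = (p k * T) * (L0 + L1 + L2) := by
          ring
        rw [this, ← mul_assoc (p k) T, mul_div_mul_left _ _ (mul_ne_zero hpk hTne)]
      exact ⟨hP 0, hP 1, hP 2⟩

theorem gwProb_eq (n : ℕ) (s : GWConfig 3 n) :
    gwProb 3 p lam n s = 1 / 3 * gwTot p lam n s := by
  unfold gwProb gwTot
  rw [Fin.sum_univ_three]
  push_cast
  ring

theorem gwPosterior_eq (n : ℕ) (s : GWConfig 3 n) (i : Fin 3) :
    gwPosterior 3 p lam n s i = gwPost p lam n i s := by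
  unfold gwPosterior gwPost
  rw [gwProb_eq]
  push_cast
  exact mul_div_mul_left _ _ (by norm_num)

/-- the error function -/
noncomputable def errFn (a b c : ℝ) : ℝ := 1 / 2 * (|a - 1 / 3| + |b - 1 / 3| + |c - 1 / 3|)

theorem bd_errFn : Bd errFn := by
  refine ⟨3, fun a b c h => ?_⟩
  obtain ⟨a1, b1, c1⟩ := h.le_one
  have e : ∀ t : ℝ, 0 ≤ t → t ≤ 1 → |t - 1 / 3| ≤ 2 := by
    intro t h0 h1
    rw [abs_le]
    constructor <;> linarith
  have h1 := e a h.ha a1
  have h2 := e b h.hb b1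
  have h3 := e c h.hc c1
  unfold errFn
  rw [abs_of_nonneg (by positivity)]
  linarith

theorem gwTerm_eq (n : ℕ) (s : GWConfig 3 n) :
    gwTerm 3 p lam n s = (1 / 3 * gwTot p lam n s)
      * errFn (gwPost p lam n 0 s) (gwPost p lam n 1 s) (gwPost p lam n 2 s) := by
  unfold gwTerm errFn
  rw [gwProb_eq, Fin.sum_univ_three, gwPosterior_eq, gwPosterior_eq, gwPosterior_eq]
  push_cast
  ring

end tree

/-- Nonreconstruction for the three-state ferromagnetic Potts channel on Galton-Watson trees. -/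
theorem gw_main {p : ℕ → ℝ} (hp0 : ∀ k, 0 ≤ p k) (hp1 : HasSum p 1) {d : ℝ}
    (hpd : HasSum (fun k : ℕ => (k : ℝ) * p k) d) {lam : ℝ} (h0 : 0 ≤ lam) (h1 : lam ≤ 1)
    (hKS : d * lam ^ 2 ≤ 1) (hb : (∃ k, 2 ≤ k ∧ 0 < p k) ∨ d * lam ^ 2 < 1) :
    (∀ n, HasSum (gwProb 3 p lam n) 1) ∧ (∀ n, Summable (gwTerm 3 p lam n)) ∧
      Tendsto (gwError 3 p lam) atTop (𝓝 0) := by
  have hR := gwEx_rep hp0 hp1 h0 h1
  have hE := gwEx_bexp hp0 hp1 h0 h1
  have hprob : ∀ n, gwProb 3 p lam n = fun s => 1 / 3 * gwTot p lam n s :=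
    fun n => funext (fun s => gwProb_eq n s)
  have hterm : ∀ n, gwTerm 3 p lam n = fun s => (1 / 3 * gwTot p lam n s)
      * errFn (gwPost p lam n 0 s) (gwPost p lam n 1 s) (gwPost p lam n 2 s) :=
    fun n => funext (fun s => gwTerm_eq n s)
  refine ⟨fun n => ?_, fun n => ?_, ?_⟩
  · rw [hprob]
    have e1 := (hR n).eq (fun _ _ _ => 1) (Bd.const 1)
    rw [(hE n).one] at e1
    simp only [mul_one] at e1
    have := (hR n).w_summable.hasSum
    rwa [← e1] at this
  · rw [hterm]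
    exact (hR n).summable_term bd_errFn
  · have herr : ∀ n, gwError 3 p lam n = gwEx p lam n errFn := by
      intro n
      unfold gwError
      rw [hterm, (hR n).eq errFn bd_errFn]
    have hm := gwEx_tendsto hp0 hp1 hpd h0 h1 hKS hb
    rw [Metric.tendsto_atTop] at hm ⊢
    intro ε hε
    set e := ε / 3 with he
    have hepos : 0 < e := by positivity
    obtain ⟨N, hN⟩ := hm (8 * e * e) (by positivity)
    refine ⟨N, fun n hn => ?_⟩
    have hp := hE n
    have hb' := hN n hn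
    rw [Real.dist_eq, sub_zero] at hb' ⊢
    have hm0 := I2_mean_nonneg hp
    rw [abs_of_nonneg hm0] at hb'
    rw [herr]
    have hnn : 0 ≤ gwEx p lam n errFn :=
      hp.nonneg _ (fun a b c _ => by unfold errFn; positivity)
    rw [abs_of_nonneg hnn]
    have hle := hp.mono (f := errFn)
      (g := fun a b c => 3 / 2 * e + 1 / (8 * e) * I2 a b c + 0 * I2 a b c) bd_errFn
      (((Bd.const _).add (Bd.smul _ bd_I2)).add (Bd.smul _ bd_I2))
      (fun a b c _ => by
        have := abs_bound (a := a) (b := b) (c := c) hepos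
        unfold errFn
        linarith)
    rw [hp.lin3 _ _ _ bd_I2 bd_I2] at hle
    have h8 : 1 / (8 * e) * gwEx p lam n I2 < e := by
      rw [div_mul_eq_mul_div, one_mul, div_lt_iff₀ (by positivity)]
      linarith
    have he3 : ε = 3 * e := by rw [he]; ring
    linarith

/-! ### the Poisson law -/

theorem poisson_nonneg {d : ℝ} (hd : 0 ≤ d) (k : ℕ) : 0 ≤ poissonLaw d k := by
  unfold poissonLaw
  positivity

theorem poisson_hasSum (d : ℝ) : HasSum (poissonLaw d) 1 := by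
  have h := (NormedSpace.expSeries_div_hasSum_exp (d : ℝ)).mul_left (Real.exp (-d))
  rw [← Real.exp_eq_exp_ℝ, ← Real.exp_add, neg_add_cancel, Real.exp_zero] at h
  have e : poissonLaw d = fun k : ℕ => Real.exp (-d) * (d ^ k / (k.factorial : ℝ)) := by
    funext k
    unfold poissonLaw
    ring
  rw [e]
  exact h

theorem poisson_mean (d : ℝ) : HasSum (fun k : ℕ => (k : ℝ) * poissonLaw d k) d := by
  have h := (poisson_hasSum d).mul_left d
  rw [mul_one] at h
  rw [← hasSum_nat_add_iff' 1]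
  simp only [Finset.sum_range_one, Nat.cast_zero, zero_mul, sub_zero]
  have e : (fun k : ℕ => ((k + 1 : ℕ) : ℝ) * poissonLaw d (k + 1)) = fun k : ℕ => d * poissonLaw d k := by
    funext k
    unfold poissonLaw
    rw [Nat.factorial_succ]
    push_cast
    have hk : (k.factorial : ℝ) ≠ 0 := by positivity
    have hk1 : (k : ℝ) + 1 ≠ 0 := by positivity
    field_simp
    ring
  rw [e]
  exact h

/-- Nonreconstruction on the Poisson Galton-Watson tree. -/
theorem poisson_main {d : ℝ} (hd : 0 < d) {lam : ℝ} (h0 : 0 ≤ lam) (h1 : lam ≤ 1)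
    (hKS : d * lam ^ 2 ≤ 1) :
    (∀ n, HasSum (gwProb 3 (poissonLaw d) lam n) 1) ∧
      (∀ n, Summable (gwTerm 3 (poissonLaw d) lam n)) ∧
      Tendsto (gwError 3 (poissonLaw d) lam) atTop (𝓝 0) := by
  refine gw_main (poisson_nonneg hd.le) (poisson_hasSum d) (poisson_mean d) h0 h1 hKS
    (Or.inl ⟨2, le_refl 2, ?_⟩)
  unfold poissonLaw
  have := Real.exp_pos (-d)
  positivity

end Vale.Agent.Lib.P154.GW
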